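import Vale.Agent.P088.R2.H858.P.Out
import Vale.Agent.P088.R2.H230.W.FlV

/-!
# P088, stage 3: the outer zone of the flat pass, variable direction `e`

`rowPOutV`: the same as `rowPOut` for a unit vector field `e`, `|D e| ≤ 1`.
-/

open MeasureTheory Set Filter
open scoped ContDiff Topology

noncomputable section

namespace Vale.Agent.P088.R2.H858.P

open Vale.Agent.P088.R2.H961.GW Vale.Agent.P088.R2.H644 Vale.Agent.P088.R2.H960.W
  Vale.Agent.P088.R2.H230.W Vale.Agent.P088.R2.H660.P Vale.Agent.P088.R2.H551.E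

lemma Kc.w100 {n N C₁ c₀ c₂ η M₁ κ C G : ℝ} (k : Kc n N C₁ c₀ c₂ η M₁ κ C G) {w : ℝ}
    (w0 : 0 ≤ w) (hw : M₁ * κ * G ≤ w ^ 2) : 100 * (N ^ 2 * C) ≤ η * c₀ * w := by
  have := k.η0; have := k.c₀0; have := k.κ0; have := k.G0; have := k.C1; have := k.N1
  have h1 : κ * G ≤ w ^ 2 := by
    have : 1 * (κ * G) ≤ M₁ * (κ * G) := mul_le_mul_of_nonneg_right k.M1 (by positivity)
    linarith
  have h2 := mul_le_mul_of_nonneg_left h1 (by positivity : 0 ≤ η ^ 2 * c₀ ^ 2)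
  have h3 := k.P2
  have h4 := k.pw.2.2.2.2
  have h5 : (100 * (N ^ 2 * C)) ^ 2 ≤ (η * c₀ * w) ^ 2 := by
    have a1 : (100 * (N ^ 2 * C)) ^ 2 = 10000 * (N ^ 4 * C ^ 2) := by rw [mul_pow, h4]; norm_num
    have a2 : (η * c₀ * w) ^ 2 = η ^ 2 * c₀ ^ 2 * w ^ 2 := by ring
    rw [a1, a2]
    linarith
  exact (pow_le_pow_iff_left₀ (by positivity) (by positivity) two_ne_zero).1 h5

variable {E ι : Type*} [NormedAddCommGroup E] [NormedSpace ℝ E] [Fintype ι] [DecidableEq ι]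

section slot

variable {σ τ : Sl E ι} {Ω : Set E} {θ v₁ v₂ W G : E → ℝ} {e : ι → E → ℝ} {z : E}
  {N C₁ c₀ c₂ η M₁ κ C ε : ℝ}

/-- **The slot of the critical gradient, variable direction.** -/
theorem smS_xv (ok : σ.Ok Ω θ) (hW : Sm Ω W) (hG : Sm Ω G) (hes : ∀ i, Sm Ω (e i))
    (he : dd (fun j => e j z) (fun j => e j z) = 1) (hde : ∀ i, nn (fun j => σ.D i (e j) z) ≤ 1)
    (ε1 : ε ≤ 1) (hε : Fintype.card ι * ε ≤ 1 / 8) (S : Sb σ ε z)
    (b : Wb σ τ v₁ v₂ W G κ C₁ C z) (h0 : ∀ z ∈ Ω, 0 < dd (gr σ W z) (gr σ W z)) (hz : z ∈ Ω)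
    (k : Kc (Fintype.card ι) N C₁ c₀ c₂ η M₁ κ C (G z))
    (hw : M₁ * κ * G z ≤ nn (gr σ W z) ^ 2) :
    H747.SW.SmS σ W (fun z => c₀ * κ * G z) (cv σ e W fun l z => -(c₂ * κ * G z) * e l z) v₁ η 2
      z := by
  have hη := k.η0; have hc := k.c₀0; have hκ := k.κ0; have G0 := k.G0; have C1 := k.C1
  have N1 := k.N1; have C₁1 := k.C₁1
  obtain ⟨pw1, pw2, pw3, pw4, pw5⟩ := k.pw
  have hU := ok.op
  have e1 : nn (fun j => e j z) = 1 := nn_one he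
  have hγs : ∀ i, Sm Ω fun z => -(c₂ * κ * G z) * e i z := fun i =>
    ((contDiffOn_const.mul hG).neg).mul (hes i)
  have hbp : Bv σ e W (fun l z => -(c₂ * κ * G z) * e l z) 1 (κ * G z) (2 * C * (κ * G z))
      (N * C₁ * (κ * G z)) z := by
    refine ⟨h0 z hz, e1.le, hde, sb_s2 S ε1, fun l i j => (S.s1 l i j).trans ε1, fun l => ?_,
      fun l => ?_, zero_le_one, ?_, ?_, fun i => ?_, fun i => ?_⟩
    · rw [S.k1 l]; simp
    · rw [S.e1 l]; simp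
    · have h1 : nn (fun j => -(c₂ * κ * G z) * e j z) =
          |-(c₂ * κ * G z)| * nn (fun j => e j z) := nn_smul _ _
      rw [h1, e1, abs_neg, abs_of_nonneg (by have := k.c₂0; positivity), mul_one]
      have := mul_le_mul_of_nonneg_right k.c₂1 (by positivity : 0 ≤ κ * G z)
      linarith
    · have h1 : (1:ℝ) + 1 ≤ 2 * C := by linarith
      exact mul_le_mul_of_nonneg_right h1 (by positivity)
    · have h1 : (fun j => σ.D i (fun z => -(c₂ * κ * G z) * e j z) z) =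
          (-(c₂ * κ * σ.D i G z)) • (fun j => e j z) +
            (-(c₂ * κ * G z)) • fun j => σ.D i (e j) z := by
        funext j
        have h3 : (fun z => -(c₂ * κ * G z) * e j z) = fun z => -(c₂ * κ) * (G z * e j z) := by
          funext w; ring
        rw [h3, D_cmul σ hU _ (hG.mul (hes j)) i hz, D_mul σ hU hG (hes j) i hz]
        simp only [Pi.add_apply, Pi.smul_apply, smul_eq_mul]
        ring
      rw [h1]
      refine (nn_add_le _ _).trans ?_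
      have c₂0 := k.c₂0
      rw [nn_smul, nn_smul, e1, abs_neg, abs_neg, mul_one, abs_mul,
        abs_of_nonneg (by positivity : 0 ≤ c₂ * κ * G z), abs_of_nonneg (by positivity)]
      have h3 : c₂ * κ ≤ 1 * κ := mul_le_mul_of_nonneg_right k.c₂1 hκ.le
      have h4 : c₂ * κ * |σ.D i G z| ≤ 1 * κ * (C * G z) :=
        mul_le_mul h3 (b.g1 i) (abs_nonneg _) (by positivity)
      have h5 : 0 ≤ C * (κ * G z) := by positivity
      have h6 : c₂ * κ * G z * nn (fun j => σ.D i (e j) z) ≤ 1 * κ * G z * 1 :=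
        mul_le_mul (mul_le_mul_of_nonneg_right h3 G0.le) (hde i) (nn_nonneg _) (by positivity)
      have h7 : 1 * (κ * G z) ≤ C * (κ * G z) := mul_le_mul_of_nonneg_right C1 (by positivity)
      linarith
    · refine (nn_le_l1 _).trans ?_
      calc ∑ j, |σ.D i (σ.D j W) z| ≤ ∑ _j : ι, C₁ * κ * G z :=
            Finset.sum_le_sum fun j _ => b.w2 i j
        _ = (Fintype.card ι : ℝ) * (C₁ * κ * G z) := by
            rw [Finset.sum_const, Finset.card_univ, nsmul_eq_mul]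
        _ ≤ N * (C₁ * κ * G z) := mul_le_mul_of_nonneg_right k.nN (by positivity)
        _ = _ := by ring
  obtain ⟨w, hwd⟩ : ∃ w, w = nn (gr σ W z) := ⟨_, rfl⟩
  obtain ⟨g, hg⟩ : ∃ g, g = κ * G z := ⟨_, rfl⟩
  have g0 : 0 < g := by rw [hg]; positivity
  have w0 : 0 ≤ w := by rw [hwd]; exact nn_nonneg _
  have hm : c₀ * κ * G z = c₀ * g := by rw [hg]; ring
  have hw' : M₁ * g ≤ w ^ 2 := by rw [hg, hwd]; linarith
  have w80 := k.w100 w0 (by rw [hwd]; exact hw)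
  have g1 : 1 ≤ g := by
    have h1 := k.P1
    have h2 := k.NC
    have h3 : η * c₀ * g ≤ 1 * g := by
      refine mul_le_mul_of_nonneg_right ?_ g0.le
      have := mul_le_mul k.η1 k.c₀1 hc.le (by norm_num)
      linarith
    have h4 : η * c₀ * κ * G z = η * c₀ * g := by rw [hg]; ring
    linarith
  have n0 := k.n0
  refine smS_cv (M₁ := C * (c₀ * g)) hbp ok hW hes hγs h0 b.v1 hz hη.le
    (by positivity) (by rw [hm]; positivity) (sb_lo S hε) (sb_sK S hε) (fun i => ?_) ?_ ?_ ?_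
  · rw [D_cmul σ hU (c₀ * κ) hG i hz, abs_mul, abs_of_nonneg (by positivity)]
    have := mul_le_mul_of_nonneg_left (b.g1 i) (by positivity : 0 ≤ c₀ * κ)
    rw [hg]
    linarith
  · -- c1
    rw [hm, ← hwd, ← hg]
    have a1 : (Fintype.card ι : ℝ) ^ 2 * (N * C₁ * g * g) ≤ N ^ 2 * (N * C₁ * g * g) :=
      mul_le_mul_of_nonneg_right pw1 (by positivity)
    have a2 : (Fintype.card ι : ℝ) ^ 2 * (2 * C * g * w) ≤ N ^ 2 * (2 * C * g * w) :=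
      mul_le_mul_of_nonneg_right pw1 (by positivity)
    have a3 : 1000 * N ^ 3 * C₁ * (g * g) ≤ η * c₀ * M₁ * (g * g) :=
      mul_le_mul_of_nonneg_right k.Q1 (by positivity)
    have a4 : η * c₀ * g * (M₁ * g) ≤ η * c₀ * g * w ^ 2 :=
      mul_le_mul_of_nonneg_left hw' (by positivity)
    have a5 : 100 * (N ^ 2 * C) * (g * w) ≤ η * c₀ * w * (g * w) :=
      mul_le_mul_of_nonneg_right w80 (by positivity)
    have a6 : 0 ≤ η * c₀ * g * w ^ 2 := by positivity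
    have a7 : 0 ≤ N ^ 2 * C * (g * w) := by positivity
    linarith
  · -- c2
    rw [hm, ← hwd, ← hg]
    have a1 : 1000 * N ^ 3 * C₁ * (g * g ^ 2) ≤ η ^ 4 * c₀ ^ 2 * M₁ * (g * g ^ 2) :=
      mul_le_mul_of_nonneg_right k.M (by positivity)
    have a2 : η ^ 4 * c₀ ^ 2 * g ^ 2 * (M₁ * g) ≤ η ^ 4 * c₀ ^ 2 * g ^ 2 * w ^ 2 :=
      mul_le_mul_of_nonneg_left hw' (by positivity)
    have a3 : 1 ≤ N ^ 3 * C₁ := by
      have h4 : 1 ≤ N ^ 3 := one_le_pow₀ N1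
      nlinarith
    have a4 : 1 * (g * g ^ 2) ≤ N ^ 3 * C₁ * (g * g ^ 2) :=
      mul_le_mul_of_nonneg_right a3 (by positivity)
    have a5 : 1 * g ^ 2 ≤ g * g ^ 2 := mul_le_mul_of_nonneg_right g1 (by positivity)
    have a6 : c₀ * (g * g ^ 2) ≤ 1 * (g * g ^ 2) :=
      mul_le_mul_of_nonneg_right k.c₀1 (by positivity)
    have a7 : 0 ≤ g * g ^ 2 := by positivity
    linarith
  · -- c3
    rw [hm, ← hwd, ← hg]
    have a1 : (Fintype.card ι : ℝ) ^ 2 * (c₀ * g * (N * C₁ * g + 1 * w) + C * (c₀ * g) * w) ≤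
        N ^ 2 * (c₀ * g * (N * C₁ * g + 1 * w) + C * (c₀ * g) * w) :=
      mul_le_mul_of_nonneg_right pw1 (by positivity)
    have a2 : 1 * w ≤ C * w := mul_le_mul_of_nonneg_right (by linarith) w0
    have a3 : N ^ 2 * (c₀ * g) * (1 * w) ≤ N ^ 2 * (c₀ * g) * (C * w) :=
      mul_le_mul_of_nonneg_left a2 (by positivity)
    have a4 : 1000 * N ^ 3 * C₁ * (c₀ * g * g) ≤ η * c₀ * M₁ * (c₀ * g * g) :=
      mul_le_mul_of_nonneg_right k.Q1 (by positivity)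
    have a5 : η * c₀ * (c₀ * g) * (M₁ * g) ≤ η * c₀ * (c₀ * g) * w ^ 2 :=
      mul_le_mul_of_nonneg_left hw' (by positivity)
    have a6 : 100 * (N ^ 2 * C) * (c₀ * g * w) ≤ η * c₀ * w * (c₀ * g * w) :=
      mul_le_mul_of_nonneg_right w80 (by positivity)
    have a7 : c₀ * (η * (c₀ * g) * w ^ 2) ≤ 1 * (η * (c₀ * g) * w ^ 2) :=
      mul_le_mul_of_nonneg_right k.c₀1 (by positivity)
    have a8 : 0 ≤ η * (c₀ * g) * w ^ 2 := by positivity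
    have a9 : 0 ≤ N ^ 2 * C * (c₀ * g * w) := by positivity
    linarith

end slot

section row

variable (E ι)
variable [MeasureSpace E] [FiniteDimensional ℝ E] [BorelSpace E]
  [(volume : Measure E).IsAddHaarMeasure]

/-- **The zone outside the `K`-tube** (`M₁ κ G ≤ |W_x|²`), variable direction `e`. -/
def RowPOutV : Prop :=
  ∀ C₁ c₀ c₂ η κ₀ : ℝ, 1 ≤ C₁ → 0 < c₀ → c₀ ≤ 1 → 0 ≤ c₂ → c₂ ≤ 1 → 0 < η → η ≤ 1 / 200 →
    η ≤ κ₀ → ∃ M₀ : ℝ, 1 ≤ M₀ ∧ ∀ M₁ κ C : ℝ, M₀ ≤ M₁ → 0 < κ → κ ≤ 1 → 1 ≤ C →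
  ∃ N₁ ε : ℝ, 1 ≤ N₁ ∧ 0 < ε ∧
  ∀ (σ τ : Sl E ι) (U Ω S : Set E) (θ v₁ v₂ W G χ : E → ℝ) (e : ι → E → ℝ),
    σ.Ok U θ → τ.Ok U θ → Sm U v₁ → Sm U v₂ → Sm U W → Sm U χ → IsOpen Ω → Ω ⊆ U → Sm Ω G →
    (∀ i, Sm Ω (e i)) →
    IsClosed S → U ∩ S ⊆ Ω → (∀ z ∈ U, z ∉ S → χ z = 0) →
    (∀ z ∈ Ω, Sb σ ε z ∧ Sb τ ε z ∧ Wb σ τ v₁ v₂ W G κ C₁ C z ∧ N₁ ≤ G z ∧
      M₁ * κ * G z ≤ nn (gr σ W z) ^ 2 ∧ dd (fun j => e j z) (fun j => e j z) = 1 ∧
      (∀ i, nn (fun j => σ.D i (e j) z) ≤ 1) ∧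
      ∀ A B : ι → ℝ, c₀ * κ * G z * (dd A A + dd B B) ≤ Ch.TH σ τ W z A B +
        tc σ (cv σ e W fun l z => -(c₂ * κ * G z) * e l z) W z A + tc τ (cq τ W G) W z B) →
    Zone σ τ U θ v₁ v₂ W χ ((H747.SW.MA σ τ W (fun z => c₀ * κ * G z) κ₀).sm fun z => χ z ^ 2)
      (H747.SW.coA σ τ W (fun z => c₀ * κ * G z) χ η)

/-- **The zone outside the `K`-tube, variable direction.** -/
theorem rowPOutV : RowPOutV E ι := by
  intro C₁ c₀ c₂ η κ₀ C₁1 c₀0 c₀1 c₂0 c₂1 η0 η1 ηκ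
  obtain ⟨N, hN⟩ : ∃ N : ℝ, N = (Fintype.card ι : ℝ) + 1 := ⟨_, rfl⟩
  have n0 : (0:ℝ) ≤ Fintype.card ι := Nat.cast_nonneg _
  have N1 : 1 ≤ N := by rw [hN]; linarith
  have nN : (Fintype.card ι : ℝ) ≤ N := by rw [hN]; linarith
  have hp : 0 < η ^ 4 * c₀ ^ 2 := by positivity
  have hp1 : η ^ 4 * c₀ ^ 2 ≤ 1 := by
    have h1 : η ^ 4 ≤ 1 := pow_le_one₀ η0.le (by linarith)
    have h2 : c₀ ^ 2 ≤ 1 := pow_le_one₀ c₀0.le c₀1
    have := mul_le_mul h1 h2 (by positivity) (by norm_num)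
    linarith
  refine ⟨1000 * N ^ 3 * C₁ / (η ^ 4 * c₀ ^ 2), ?_, ?_⟩
  · rw [le_div_iff₀ hp]
    have h4 : 1 ≤ N ^ 3 := one_le_pow₀ N1
    have h5 : 1 ≤ N ^ 3 * C₁ := by nlinarith
    linarith
  intro M₁ κ C hM₁ κ0 κ1 C1
  have hq : 0 < η ^ 4 * c₀ ^ 2 * κ ^ 3 := by positivity
  refine ⟨10000 * N ^ 4 * C ^ 2 / (η ^ 4 * c₀ ^ 2 * κ ^ 3), 1 / (8 * N), ?_, by positivity, ?_⟩
  · rw [le_div_iff₀ hq]
    have h1 : κ ^ 3 ≤ 1 := pow_le_one₀ κ0.le κ1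
    have h2 : η ^ 4 * c₀ ^ 2 * κ ^ 3 ≤ 1 * 1 := mul_le_mul hp1 h1 (by positivity) (by norm_num)
    have h3 : 1 ≤ N ^ 4 := one_le_pow₀ N1
    have h4 : 1 ≤ C ^ 2 := one_le_pow₀ C1
    have h5 : 1 ≤ N ^ 4 * C ^ 2 := by nlinarith
    linarith
  intro σ τ U Ω S θ v₁ v₂ W G χ e ok ot hv₁ hv₂ hW hχ hΩ h hG hes hS hSU h0 H
  have ε0 : 0 < 1 / (8 * N) := by positivity
  have ε1 : 1 / (8 * N) ≤ 1 := by
    rw [div_le_one (by positivity)]; linarith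
  have hε : (Fintype.card ι : ℝ) * (1 / (8 * N)) ≤ 1 / 8 := by
    rw [mul_one_div, div_le_iff₀ (by positivity)]; linarith
  have kc : ∀ z ∈ Ω, Kc (Fintype.card ι) N C₁ c₀ c₂ η M₁ κ C (G z) := by
    intro z hz
    obtain ⟨-, -, -, hN₁, -, -, -, -⟩ := H z hz
    refine ⟨n0, N1, nN, C₁1, c₀0, c₀1, c₂0, c₂1, η0, by linarith, κ0, κ1, C1, ?_, ?_⟩
    · rw [div_le_iff₀ hp] at hM₁
      linarith
    · rw [div_le_iff₀ hq] at hN₁
      linarith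
  have hx0 : ∀ z ∈ Ω, 0 < dd (gr σ W z) (gr σ W z) := by
    intro z hz
    obtain ⟨-, -, -, -, hw, -, -, -⟩ := H z hz
    have k := kc z hz
    rw [← nn_sq]
    have := k.M0; have := k.G0
    exact lt_of_lt_of_le (by positivity) hw
  have hy0 : ∀ z ∈ Ω, 0 < dd (gr τ W z) (gr τ W z) := by
    intro z hz
    obtain ⟨-, -, b, -, -, -, -, -⟩ := H z hz
    exact dd_pos_of_nn ((kc z hz).G0.trans_le b.lo)
  have ok' := Ok_mono ok hΩ h
  have ot' := Ok_mono ot hΩ h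
  have hWΩ := hW.mono h
  refine H747.SW.zoneA (c := cv σ e W fun l z => -(c₂ * κ * G z) * e l z) (c' := cq τ W G)
    (K := 2) ok ot hv₁ hv₂ hW hχ hΩ h hS hSU h0 (fun i => ?_) (fun i => ?_)
    (contDiffOn_const.mul hG) (lt_of_lt_of_le η0 ηκ) η0 η1 ηκ (by norm_num) (by linarith)
    (fun z hz => ?_) (fun z hz => ?_) (fun z hz A B x y => ?_)
  · exact sm_cv ok' hWΩ hes (fun l => ((contDiffOn_const.mul hG).neg).mul (hes l)) hx0 i
  · exact sm_cq ot' hWΩ hG hy0 i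
  · obtain ⟨Sx, -, b, -, hw, he, hde, -⟩ := H z hz
    exact smS_xv ok' hWΩ hG hes he hde ε1 hε Sx b hx0 hz (kc z hz) hw
  · obtain ⟨-, Sy, b, -, -, he, -, -⟩ := H z hz
    exact smS_y ot' hWΩ hG he ε0 ε1 hε Sy b hy0 hz (kc z hz)
  · obtain ⟨Sx, Sy, b, -, hw, -, -, ct⟩ := H z hz
    have k := kc z hz
    have G0 := k.G0
    have ct' := ct A B
    have q := (abs_le.1 (b.qf A B x y)).1
    have g2 := (abs_le.1 b.G2).2
    have Fx := F_lo Sx hε W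
    have Fy := F_lo Sy hε W
    have sx := (sb_near Sx hε A).2
    have sy := (sb_near Sy hε B).2
    have hlo : G z ^ 2 ≤ nn (gr τ W z) ^ 2 := pow_le_pow_left₀ G0.le b.lo 2
    have sc := scal (X := |x|) (Y := |y|) (a := nn A) (b := nn B) (F := σ.F W z)
      (F' := τ.F W z) k b.G1 (hw.trans Fx) (hlo.trans Fy)
    rw [sq_abs, sq_abs, nn_sq, nn_sq] at sc
    have g2' : Ch.G2 σ W z * x ^ 2 ≤ C₁ * κ ^ 2 * G z ^ 2 * x ^ 2 :=
      mul_le_mul_of_nonneg_right g2 (sq_nonneg x)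
    have m0 : 0 ≤ c₀ * κ * G z := by positivity
    have s1 := mul_le_mul_of_nonneg_left sx m0
    have s2 := mul_le_mul_of_nonneg_left sy m0
    have s3 : 0 ≤ c₀ * κ * G z * dd A A := mul_nonneg m0 (dd_self_nonneg A)
    have s4 : 0 ≤ c₀ * κ * G z * dd B B := mul_nonneg m0 (dd_self_nonneg B)
    linarith

end row

end Vale.Agent.P088.R2.H858.P
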