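import Vale.Agent.P088.R2.H660.P.Data

/-!
# P088, stage 3: the certificate outside the `K`-tube at the flat pass
-/

open MeasureTheory Set Filter
open scoped ContDiff Topology

noncomputable section

namespace Vale.Agent.P088.R2.H858.P

open Vale.Agent.P088.R2.H961.GW Vale.Agent.P088.R2.H644 Vale.Agent.P088.R2.H960.W
  Vale.Agent.P088.R2.H230.W Vale.Agent.P088.R2.H660.P Vale.Agent.P088.R2.H660.W

section vec

variable {ι : Type*} [Fintype ι]

/-- The field `fl e w (-c e)` gives at least `c (2 (e·U)² - |U|²)`. -/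
lemma TT_fl_lower {e w U : ι → ℝ} {c : ℝ} (hc : 0 ≤ c) (he : dd e e = 1) (hw : 0 < dd w w) :
    c * (2 * dd e U ^ 2 - dd U U) ≤ TT (fl e w ((-c) • e)) w U := by
  have g := gram_nonneg e w U
  have e1 : TT (fl e w ((-c) • e)) w U = c * (2 * dd e U ^ 2 - dd U U) +
      2 * c / dd w w * (dd e e * dd w w * dd U U + 2 * dd w e * dd U e * dd U w -
        dd e e * dd U w ^ 2 - dd w w * dd U e ^ 2 - dd U U * dd w e ^ 2) := by
    rw [fl_eq, TT_smul_left]
    simp only [H230.W.TT, fm, dd_add_left, dd_sub_left, dd_smul_left, he, dd_comm e w,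
      dd_comm U e, dd_comm U w]
    field_simp
    ring
  rw [e1]
  have : 0 ≤ 2 * c / dd w w * (dd e e * dd w w * dd U U + 2 * dd w e * dd U e * dd U w -
        dd e e * dd U w ^ 2 - dd w w * dd U e ^ 2 - dd U U * dd w e ^ 2) :=
    mul_nonneg (by positivity) g
  linarith

/-- `h` is close to `-e`. -/
lemma lat_lower {e h U : ι → ℝ} {δ : ℝ} (he : dd e e = 1) (hh : dd h h = 1)
    (hd : nn (h + e) ≤ 2 * δ) : dd U U - dd e U ^ 2 - 4 * δ * dd U U ≤ lat h U := by
  unfold lat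
  have e1 : dd h U ^ 2 - dd e U ^ 2 = dd (h + e) U * dd (h - e) U := by
    rw [dd_add_left, dd_sub_left]; ring
  have h1 := dd_le_nn (h + e) U
  have h2 := dd_le_nn (h - e) U
  have h3 : nn (h - e) ≤ 2 := by
    have := nn_sub_le h e
    rw [nn_one he, nn_one hh] at this
    linarith
  have δ0 : 0 ≤ 2 * δ := (nn_nonneg _).trans hd
  have hU := nn_nonneg U
  have h4 : |dd (h + e) U| ≤ 2 * δ * nn U := h1.trans (mul_le_mul_of_nonneg_right hd hU)
  have h5 : |dd (h - e) U| ≤ 2 * nn U := h2.trans (mul_le_mul_of_nonneg_right h3 hU)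
  have h6 : |dd (h + e) U * dd (h - e) U| ≤ 2 * δ * nn U * (2 * nn U) := by
    rw [abs_mul]
    exact mul_le_mul h4 h5 (abs_nonneg _) (mul_nonneg δ0 hU)
  have h7 : 2 * δ * nn U * (2 * nn U) = 4 * δ * dd U U := by
    rw [← nn_mul_self]; ring
  have h8 := (abs_le.1 h6).2
  rw [h7, ← e1] at h8
  linarith

end vec

variable {E ι : Type*} [NormedAddCommGroup E] [NormedSpace ℝ E] [Fintype ι]

/-- **The certificate outside the `K`-tube at a point.** -/
theorem certOut : RowCertOut E ι := by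
  intro σ τ u r W a e h z ε g G₀ Φ₁ Φ₂ L L₁ w₀ c₂ γ G hε G0 L1 L2 hr Φ0 Φw w1 w2 r1 _hε1 k1 k2
    e1 e2 hw₀ ha hw hγ A B hT
  have hr0 := G.r0
  have ε0 := G.ε0
  have hLr : L / r z ≤ 21 / 1000 := by
    rw [div_le_iff₀ hr0]; linarith
  have hLr0 : 0 < L / r z := by positivity
  have base := cert_in_at G hε G0 L1 L2 hr (by linarith) Φ0 Φw (by linarith) e1 e2 hw₀ ha A B hT
  obtain ⟨U, hU⟩ : ∃ U, U = sU σ z A := ⟨_, rfl⟩
  obtain ⟨c, hc⟩ : ∃ c, c = c₂ * G₀ := ⟨_, rfl⟩
  obtain ⟨K, hK⟩ : ∃ K, K = G₀ * L / r z := ⟨_, rfl⟩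
  have hK' : K = G₀ * (L / r z) := by rw [hK]; ring
  have c₂0 : 0 ≤ c₂ := by linarith
  have c0 : 0 ≤ c := by rw [hc]; positivity
  have hUU := dd_self_nonneg U
  -- the gradient
  have hφ : nn (ph σ u r L z) ≤ w₀ := ph_le G (by linarith) G0 Φ0 e1 hw₀
  have w₀0 : 0 ≤ w₀ := (nn_nonneg _).trans hφ
  have d1 : nn (e + L • h) ≤ 2 * w₀ + 4 * ε := by
    have x1 : e + L • h = (2 : ℝ) • ph σ u r L z - ((gr σ u z - e) + L • (gr σ r z - h)) := by
      unfold ph
      funext i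
      simp only [Pi.add_apply, Pi.sub_apply, Pi.smul_apply, smul_eq_mul]
      ring
    rw [x1]
    have x2 := nn_sub_le ((2 : ℝ) • ph σ u r L z) ((gr σ u z - e) + L • (gr σ r z - h))
    have x3 := nn_add_le (gr σ u z - e) (L • (gr σ r z - h))
    have x4 : nn ((2 : ℝ) • ph σ u r L z) ≤ 2 * w₀ := by
      rw [nn_smul, abs_of_pos (by norm_num : (0:ℝ) < 2)]; linarith
    have x5 : nn (L • (gr σ r z - h)) ≤ 21 / 10 * ε := by
      rw [nn_smul, abs_of_nonneg (by linarith)]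
      exact mul_le_mul L2 G.rx (nn_nonneg _) (by norm_num)
    have x6 := G.ux
    linarith
  have d2 : |1 - L| ≤ 2 * w₀ + 4 * ε := by
    have x1 := abs_nn_sub_le (L • h) (-e)
    rw [nn_smul, nn_neg, nn_one G.ee, nn_one G.hh, abs_of_nonneg (by linarith : 0 ≤ L), mul_one,
      sub_neg_eq_add, add_comm (L • h) e, abs_sub_comm] at x1
    exact x1.trans d1
  have d3 : nn (h + e) ≤ 2 * (2 * w₀ + 4 * ε) := by
    have x1 : h + e = (e + L • h) + (1 - L) • h := by
      funext i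
      simp only [Pi.add_apply, Pi.smul_apply, smul_eq_mul]
      ring
    rw [x1]
    have x2 := nn_add_le (e + L • h) ((1 - L) • h)
    rw [nn_smul, nn_one G.hh, mul_one] at x2
    linarith
  have hlat := lat_lower (U := U) G.ee G.hh d3
  -- the field
  have fld : c * (2 * dd e U ^ 2 - dd U U) - 6 * (c * ε) * dd U U ≤
      tc σ (cf σ e W γ) W z A := by
    rw [tc_TM, cf_eq (γz := (-c) • e) (fun l => by
      rw [hγ l, hc]; simp [Pi.smul_apply, smul_eq_mul]), ← hU]
    have t1 := TT_fl_lower (U := U) c0 G.ee hw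
    have t2 := TM_fl_le (e := e) (γ := (-c) • e) (A := A) (U := U) hw
    have hA := (up_A (by linarith) (G.nx A)).2
    rw [← hU] at hA
    rw [nn_one G.ee, nn_smul, nn_one G.ee, abs_neg, abs_of_nonneg c0, mul_one, one_mul] at t2
    have t3 : nn (A - U) * nn U ≤ 2 * ε * dd U U := by
      rw [← nn_mul_self U, ← mul_assoc]
      exact mul_le_mul_of_nonneg_right hA (nn_nonneg U)
    have t4 : 3 * c * (nn (A - U) * nn U) ≤ 3 * c * (2 * ε * dd U U) :=
      mul_le_mul_of_nonneg_left t3 (by positivity)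
    have t5 := (abs_le.1 t2).1
    linarith
  have hcs : dd e U ^ 2 ≤ dd U U := by
    have := H660.W.dd_cs e U
    rwa [G.ee, one_mul] at this
  rw [← hU] at base ⊢
  rw [← hc]
  rw [← hK] at base
  -- the sizes
  have K0 : 0 ≤ K := by rw [hK']; positivity
  have s1 : G₀ * w₀ ^ 2 ≤ 1 / 5000 * K := by
    have := mul_le_mul_of_nonneg_left w2 G0.le
    rw [hK']; linarith
  have s2 : G₀ * |L₁| ≤ 1 / 1000 * K := by
    have := mul_le_mul_of_nonneg_left r1 G0.le
    rw [hK']; linarith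
  have s3 : G₀ * ε / r z ≤ 2 / 10000000 * K := by
    have x1 : G₀ * ε / r z = ε * (G₀ / r z) := by ring
    have x2 : K = L * (G₀ / r z) := by rw [hK]; ring
    rw [x1, x2]
    have x3 : 0 ≤ G₀ / r z := by positivity
    have x4 : ε ≤ 2 / 10000000 * L := by linarith
    have x5 := mul_le_mul_of_nonneg_right x4 x3
    linarith
  have s4 : K ≤ 8 * c := by
    have := mul_le_mul_of_nonneg_left k1 G0.le
    rw [hK', hc]; linarith
  have s5 : 5 * c ≤ 2 * K := by
    have := mul_le_mul_of_nonneg_left k2 G0.le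
    rw [hK', hc]; linarith
  have m1 : 4 / 5 * K * (dd U U - dd e U ^ 2 - 4 * (2 * w₀ + 4 * ε) * dd U U) ≤
      4 / 5 * K * lat h U := mul_le_mul_of_nonneg_left hlat (by positivity)
  have m2 : 2 * c * (dd U U - dd e U ^ 2) ≤ 4 / 5 * K * (dd U U - dd e U ^ 2) :=
    mul_le_mul_of_nonneg_right (by linarith) (by linarith)
  have m3 : K * (2 * w₀ + 4 * ε) ≤ K * (51 / 10000) :=
    mul_le_mul_of_nonneg_left (by linarith) K0
  have m4 : 4 / 5 * K * (4 * (2 * w₀ + 4 * ε) * dd U U) ≤ 16 / 5 * (K * (51 / 10000)) * dd U U := by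
    have := mul_le_mul_of_nonneg_right m3 hUU
    linarith
  have m5 : (28 * (G₀ * w₀ ^ 2) + 3 * (G₀ * |L₁|) + 9 * (G₀ * ε / r z)) * dd U U ≤
      (28 * (1 / 5000 * K) + 3 * (1 / 1000 * K) + 9 * (2 / 10000000 * K)) * dd U U :=
    mul_le_mul_of_nonneg_right (by linarith) hUU
  have m6 : 6 * (c * ε) * dd U U ≤ 6 * (c * (1 / 10000000)) * dd U U :=
    mul_le_mul_of_nonneg_right (by
      have := mul_le_mul_of_nonneg_left hε c0
      linarith) hUU
  have m7 : K * dd U U ≤ 8 * c * dd U U := mul_le_mul_of_nonneg_right s4 hUU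
  have m8 : 0 ≤ c * dd U U := by positivity
  linarith

end Vale.Agent.P088.R2.H858.P
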