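import Vale.Agent.P088.R2.H932.EP.CutV
import Vale.Agent.P088.R2.H961.W.Op

/-!
# P088, stage 3: the cut variables of the passes

`τ = (log (1 + F / (M K)) - log 2) / log Λ`, where `F = |W_x|²` and `K` is the lateral stiffness:
`τ ≤ 0` iff `F ≤ M K`, `τ ≥ 1` iff `F ≥ (2 Λ - 1) M K`; all derivatives have the factor `1 / log Λ`.
-/

open Set Filter
open scoped Topology ContDiff

noncomputable section

namespace Vale.Agent.P088.R2.H858.P

open Vale.Agent.P088.R2.H961.GW Vale.Agent.P088.R2.H932.EP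

section def0

variable {E : Type*} {F K : E → ℝ} {Λ M : ℝ} {z : E}

/-- The cut variable, smooth also at `F = 0`. -/
def tauP (Λ M : ℝ) (F K : E → ℝ) (z : E) : ℝ :=
  (Real.log (1 + F z / (M * K z)) - Real.log 2) / Real.log Λ

theorem tauP_le (hΛ : 1 < Λ) (hM : 0 < M) (hK : 0 < K z) (hF : 0 ≤ F z) :
    tauP Λ M F K z ≤ 0 ↔ F z ≤ M * K z := by
  have hm : 0 < M * K z := mul_pos hM hK
  have h1 : 0 ≤ F z / (M * K z) := div_nonneg hF hm.le
  have hL := Real.log_pos hΛ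
  have e1 : Real.log (1 + F z / (M * K z)) - Real.log 2 ≤ 0 ↔ F z ≤ M * K z := by
    rw [sub_nonpos, Real.log_le_log_iff (by linarith) (by norm_num), ← div_le_one hm]
    constructor <;> intro h <;> linarith
  unfold tauP
  rw [← e1, div_le_iff₀ hL, zero_mul]

theorem le_tauP (hΛ : 1 < Λ) (hM : 0 < M) (hK : 0 < K z) (hF : 0 ≤ F z) :
    1 ≤ tauP Λ M F K z ↔ (2 * Λ - 1) * (M * K z) ≤ F z := by
  have hm : 0 < M * K z := mul_pos hM hK
  have h1 : 0 ≤ F z / (M * K z) := div_nonneg hF hm.le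
  have hL := Real.log_pos hΛ
  unfold tauP
  rw [one_le_div hL, le_sub_iff_add_le, ← Real.log_mul (by linarith) (by norm_num),
    Real.log_le_log_iff (by linarith) (by linarith), ← le_div_iff₀ hm]
  constructor <;> intro h <;> linarith

theorem tauP_lt (hΛ : 1 < Λ) (hM : 0 < M) (hK : 0 < K z) (hF : 0 ≤ F z) :
    0 < tauP Λ M F K z ↔ M * K z < F z := by
  rw [← not_iff_not, not_lt, not_lt]
  exact tauP_le hΛ hM hK hF

theorem lt_tauP (hΛ : 1 < Λ) (hM : 0 < M) (hK : 0 < K z) (hF : 0 ≤ F z) :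
    tauP Λ M F K z < 1 ↔ F z < (2 * Λ - 1) * (M * K z) := by
  rw [← not_iff_not, not_lt, not_lt]
  exact le_tauP hΛ hM hK hF

end def0

section gen

variable {E : Type*} [NormedAddCommGroup E] [NormedSpace ℝ E] {F K : E → ℝ} {Λ M : ℝ} {z : E}
  {U : Set E}

theorem tauP_sm (hM : 0 < M) (hK : ContDiffOn ℝ ∞ K U) (hF : ContDiffOn ℝ ∞ F U)
    (k0 : ∀ z ∈ U, 0 < K z) (f0 : ∀ z ∈ U, 0 ≤ F z) : ContDiffOn ℝ ∞ (tauP Λ M F K) U := by
  unfold tauP
  have h1 : ContDiffOn ℝ ∞ (fun z => 1 + F z / (M * K z)) U :=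
    contDiffOn_const.add (hF.div (contDiffOn_const.mul hK) fun z hz =>
      (mul_pos hM (k0 z hz)).ne')
  have h2 : ∀ z ∈ U, 1 + F z / (M * K z) ≠ 0 := fun z hz => by
    have := div_nonneg (f0 z hz) (mul_pos hM (k0 z hz)).le
    linarith
  exact ((h1.log h2).sub contDiffOn_const).div_const _

theorem fd_tauP (hF : DifferentiableAt ℝ F z) (hK : DifferentiableAt ℝ K z) (hM : 0 < M)
    (k0 : 0 < K z) (f0 : 0 ≤ F z) (v : E) : fderiv ℝ (tauP Λ M F K) z v =
      (fderiv ℝ F z v - F z * (fderiv ℝ K z v / K z)) / (M * K z + F z) / Real.log Λ := by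
  have hm : 0 < M * K z := mul_pos hM k0
  have hq : 0 < 1 + F z / (M * K z) := by
    have := div_nonneg f0 hm.le
    linarith
  have hs : 0 < M * K z + F z := by linarith
  have h1 : HasFDerivAt (fun y => F y / (M * K y))
      ((M * K z)⁻¹ • fderiv ℝ F z - (F z * ((M * K z) ^ 2)⁻¹) • (M • fderiv ℝ K z)) z := by
    have hinv : HasFDerivAt (fun y => (M * K y)⁻¹)
        (-((M * K z) ^ 2)⁻¹ • (M • fderiv ℝ K z)) z :=
      (hasDerivAt_inv hm.ne').comp_hasFDerivAt z (hK.hasFDerivAt.const_mul M)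
    have h2 := hF.hasFDerivAt.mul hinv
    refine (h2.congr_fderiv ?_).congr_of_eventuallyEq
      (Eventually.of_forall fun y => by simp only [div_eq_mul_inv, Pi.mul_apply])
    ext w
    simp only [_root_.add_apply, _root_.smul_apply, _root_.sub_apply, smul_eq_mul]
    ring
  have h3 : HasFDerivAt (tauP Λ M F K)
      ((1 / Real.log Λ) • ((1 + F z / (M * K z))⁻¹ •
        ((M * K z)⁻¹ • fderiv ℝ F z - (F z * ((M * K z) ^ 2)⁻¹) • (M • fderiv ℝ K z)))) z := by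
    have h4 := ((h1.const_add 1).log hq.ne').sub_const (Real.log 2)
    have h5 := h4.const_mul (1 / Real.log Λ)
    refine h5.congr_of_eventuallyEq (Eventually.of_forall fun y => ?_)
    unfold tauP
    ring
  rw [h3.fderiv]
  simp only [_root_.smul_apply, _root_.sub_apply, smul_eq_mul]
  have e1 : 1 + F z / (M * K z) = (M * K z + F z) / (M * K z) := by field_simp
  rw [e1]
  by_cases hL : Real.log Λ = 0
  · rw [hL]; simp
  · field_simp

/-- **The first derivatives.** -/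
theorem fd_tauP_le (hΛ : 1 < Λ) (hF : DifferentiableAt ℝ F z) (hK : DifferentiableAt ℝ K z)
    (hM : 0 < M) (k0 : 0 < K z) (f0 : 0 ≤ F z) (v : E) : |fderiv ℝ (tauP Λ M F K) z v| ≤
      (|fderiv ℝ F z v| / (M * K z + F z) + |fderiv ℝ K z v| / K z) / Real.log Λ := by
  have hm : 0 < M * K z := mul_pos hM k0
  have hs : 0 < M * K z + F z := by linarith
  have hL := Real.log_pos hΛ
  rw [fd_tauP hF hK hM k0 f0 v, abs_div, abs_of_pos hL, abs_div, abs_of_pos hs]
  refine div_le_div_of_nonneg_right ?_ hL.le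
  have h1 : |fderiv ℝ F z v - F z * (fderiv ℝ K z v / K z)| ≤
      |fderiv ℝ F z v| + (M * K z + F z) * (|fderiv ℝ K z v| / K z) := by
    refine (abs_sub _ _).trans (add_le_add le_rfl ?_)
    rw [abs_mul, abs_div, abs_of_nonneg f0, abs_of_pos k0]
    exact mul_le_mul_of_nonneg_right (by linarith) (by positivity)
  calc |fderiv ℝ F z v - F z * (fderiv ℝ K z v / K z)| / (M * K z + F z) ≤
      (|fderiv ℝ F z v| + (M * K z + F z) * (|fderiv ℝ K z v| / K z)) / (M * K z + F z) :=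
        div_le_div_of_nonneg_right h1 hs.le
    _ = _ := by rw [add_div, mul_div_cancel_left₀ _ hs.ne']

end gen

/-! ## Second derivatives in helper932's form -/

section jb

variable {E : Type*} [NormedAddCommGroup E] [NormedSpace ℝ E] {ι : Type*}
variable {e : ι → E} {s : ι → ℝ} {F K : E → ℝ} {A A' B B' M Λ : ℝ} {z : E}

/-- **The cut variable, first and second derivatives** (at points with `F > 0`). -/
theorem jb_tauP (hs : ∀ i, 0 ≤ s i) (hΛ : 1 < Λ) (hM : 0 < M) (f0 : 0 < F z) (k0 : 0 < K z)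
    (hF : JB e s F (A * F z) (A' * F z) z) (hK : JB e s K (B * K z) (B' * K z) z) :
    JB e s (tauP Λ M F K) ((A + B) / Real.log Λ)
      (((A + B) ^ 2 + (A ^ 2 + A' + (B ^ 2 + B'))) / Real.log Λ) z := by
  have hL := Real.log_pos hΛ
  have h1 := (((hF.log f0).sub (hK.log k0)).addc (-Real.log M)).logexp (α := 1) (β := 1)
    one_pos one_pos
  have h2 := (h1.addc (-Real.log 2)).cmul (1 / Real.log Λ)
  have hpF : ∀ᶠ y in 𝓝 z, 0 < F y := hF.sm.continuousAt.eventually (lt_mem_nhds f0)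
  have hpK : ∀ᶠ y in 𝓝 z, 0 < K y := hK.sm.continuousAt.eventually (lt_mem_nhds k0)
  have h3 : JB e s (tauP Λ M F K) _ _ z := h2.congr (by
    filter_upwards [hpF, hpK] with y g1 g2
    have e1 : Real.exp (Real.log (F y) - Real.log (K y) + -Real.log M) = F y / (M * K y) := by
      rw [Real.exp_add, Real.exp_sub, Real.exp_neg, Real.exp_log g1, Real.exp_log g2,
        Real.exp_log hM]
      field_simp
    unfold tauP
    rw [e1, one_mul, add_comm (F y / (M * K y)) 1]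
    ring)
  refine h3.mono hs (le_of_eq ?_) (le_of_eq ?_)
  · rw [abs_of_pos (by positivity)]; ring
  · rw [abs_of_pos (by positivity)]; ring

end jb

/-! ## The square of the gradient -/

section slot

variable {E ι κ : Type*} [NormedAddCommGroup E] [NormedSpace ℝ E] [Fintype ι]
  {σ : Sl E ι} {U : Set E} {θ W K : E → ℝ} {z : E}

theorem fd_F (ok : σ.Ok U θ) (hW : Sm U W) (hz : z ∈ U) (v : E) :
    fderiv ℝ (σ.F W) z v = ∑ i, ∑ j, (fderiv ℝ (σ.s i j) z v * σ.D i W z * σ.D j W z +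
      2 * (σ.s i j z * fderiv ℝ (σ.D i W) z v * σ.D j W z)) := by
  have hU := ok.op
  have ds : ∀ i j, DifferentiableAt ℝ (σ.s i j) z := fun i j => (ok.ss i j).diff hU hz
  have dD : ∀ i, DifferentiableAt ℝ (σ.D i W) z := fun i => (ok.sD hW i).diff hU hz
  have e1 : fderiv ℝ (σ.F W) z v = ∑ i, ∑ j, (fderiv ℝ (σ.s i j) z v * σ.D i W z * σ.D j W z +
      σ.s i j z * fderiv ℝ (σ.D i W) z v * σ.D j W z +
      σ.s i j z * σ.D i W z * fderiv ℝ (σ.D j W) z v) := by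
    have h0 : σ.F W = fun z => ∑ i, ∑ j, σ.s i j z * σ.D i W z * σ.D j W z := rfl
    rw [h0, fderiv_fun_sum fun i _ => DifferentiableAt.fun_sum fun j _ =>
      ((ds i j).fun_mul (dD i)).fun_mul (dD j)]
    simp only [_root_.sum_apply]
    refine Finset.sum_congr rfl fun i _ => ?_
    rw [fderiv_fun_sum fun j _ => ((ds i j).fun_mul (dD i)).fun_mul (dD j)]
    simp only [_root_.sum_apply]
    refine Finset.sum_congr rfl fun j _ => ?_
    rw [fderiv_fun_mul ((ds i j).fun_mul (dD i)) (dD j), fderiv_fun_mul (ds i j) (dD i)]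
    simp only [_root_.add_apply, _root_.smul_apply, smul_eq_mul]
    ring
  rw [e1]
  have e2 : ∑ i, ∑ j, σ.s i j z * σ.D i W z * fderiv ℝ (σ.D j W) z v =
      ∑ i, ∑ j, σ.s i j z * fderiv ℝ (σ.D i W) z v * σ.D j W z := by
    rw [Finset.sum_comm]
    refine Finset.sum_congr rfl fun j _ => Finset.sum_congr rfl fun i _ => ?_
    rw [ok.sy i j z]; ring
  simp only [Finset.sum_add_distrib, two_mul] at e2 ⊢
  rw [e2]; ring

/-- **The derivative of `|W_x|²`**: `q = ∑ (D_i W)²`, `n` the dimension. -/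
theorem fd_F_le (ok : σ.Ok U θ) (hW : Sm U W) (hz : z ∈ U) {v : E} {δ S H w : ℝ}
    (hδ : ∀ i j, |fderiv ℝ (σ.s i j) z v| ≤ δ) (hS : ∀ i j, |σ.s i j z| ≤ S)
    (hH : ∀ i, |fderiv ℝ (σ.D i W) z v| ≤ H) (hw : ∀ i, |σ.D i W z| ≤ w) :
    |fderiv ℝ (σ.F W) z v| ≤ (Fintype.card ι : ℝ) ^ 2 * (δ * w ^ 2 + 2 * (S * H * w)) := by
  rw [fd_F ok hW hz v]
  have key : ∀ i j, |fderiv ℝ (σ.s i j) z v * σ.D i W z * σ.D j W z +
      2 * (σ.s i j z * fderiv ℝ (σ.D i W) z v * σ.D j W z)| ≤ δ * w ^ 2 + 2 * (S * H * w) := by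
    intro i j
    have n1 : 0 ≤ δ := (abs_nonneg _).trans (hδ i j)
    have n2 : 0 ≤ S := (abs_nonneg _).trans (hS i j)
    have n3 : 0 ≤ H := (abs_nonneg _).trans (hH i)
    have n4 : 0 ≤ w := (abs_nonneg _).trans (hw i)
    refine (abs_add_le _ _).trans (add_le_add ?_ ?_)
    · rw [abs_mul, abs_mul, pow_two, ← mul_assoc]
      exact mul_le_mul (mul_le_mul (hδ i j) (hw i) (abs_nonneg _) n1) (hw j) (abs_nonneg _)
        (by positivity)
    · rw [abs_mul, abs_of_pos (by norm_num : (0 : ℝ) < 2), abs_mul, abs_mul]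
      refine mul_le_mul_of_nonneg_left ?_ (by norm_num)
      exact mul_le_mul (mul_le_mul (hS i j) (hH i) (abs_nonneg _) n2) (hw j) (abs_nonneg _)
        (by positivity)
  calc _ ≤ ∑ i, ∑ j, |fderiv ℝ (σ.s i j) z v * σ.D i W z * σ.D j W z +
      2 * (σ.s i j z * fderiv ℝ (σ.D i W) z v * σ.D j W z)| :=
        (Finset.abs_sum_le_sum_abs _ _).trans (Finset.sum_le_sum fun i _ =>
          Finset.abs_sum_le_sum_abs _ _)
    _ ≤ ∑ _i : ι, ∑ _j : ι, (δ * w ^ 2 + 2 * (S * H * w)) :=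
        Finset.sum_le_sum fun i _ => Finset.sum_le_sum fun j _ => key i j
    _ = _ := by
        simp only [Finset.sum_const, Finset.card_univ, nsmul_eq_mul]
        ring

/-- **The first derivatives of the cut variable in terms of the weight**: `|W_xv| ≤ H`,
`|s| ≤ S`, `|D_v s| ≤ δ`, `(D_i W)² ≤ 2 |W_x|²`. -/
theorem fd_tauP_W (ok : σ.Ok U θ) (hW : Sm U W) (hz : z ∈ U) (hK : DifferentiableAt ℝ K z)
    {Λ M δ S H B : ℝ} (hΛ : 1 < Λ) (hM : 0 < M) (k0 : 0 < K z) {v : E}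
    (hδ : ∀ i j, |fderiv ℝ (σ.s i j) z v| ≤ δ) (d0 : 0 ≤ δ) (hS : ∀ i j, |σ.s i j z| ≤ S)
    (S0 : 0 ≤ S) (hH : ∀ i, |fderiv ℝ (σ.D i W) z v| ≤ H) (H0 : 0 ≤ H)
    (h2 : ∀ i, σ.D i W z ^ 2 ≤ 2 * σ.F W z) (f0 : 0 ≤ σ.F W z)
    (hB : |fderiv ℝ K z v| ≤ B * K z) :
    |fderiv ℝ (tauP Λ M (σ.F W) K) z v| ≤ (2 * (Fintype.card ι : ℝ) ^ 2 *
      (δ + S * H / √(M * K z)) + B) / Real.log Λ := by
  have hm : 0 < M * K z := mul_pos hM k0
  have hL := Real.log_pos hΛ
  have dF : DifferentiableAt ℝ (σ.F W) z := (ok.sG hW hW).diff ok.op hz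
  refine (fd_tauP_le hΛ dF hK hM k0 f0 v).trans (div_le_div_of_nonneg_right ?_ hL.le)
  have hs : 0 < M * K z + σ.F W z := by linarith
  have hsq : 0 ≤ √(2 * σ.F W z) := Real.sqrt_nonneg _
  have hw : ∀ i, |σ.D i W z| ≤ √(2 * σ.F W z) := fun i => Real.abs_le_sqrt (h2 i)
  have h3 := fd_F_le ok hW hz hδ hS hH hw
  rw [Real.sq_sqrt (by linarith)] at h3
  have n0 : (0 : ℝ) ≤ (Fintype.card ι : ℝ) ^ 2 := by positivity
  refine add_le_add ?_ (by rwa [div_le_iff₀ k0])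
  rw [div_le_iff₀ hs]
  refine h3.trans ?_
  rw [show 2 * (Fintype.card ι : ℝ) ^ 2 * (δ + S * H / √(M * K z)) * (M * K z + σ.F W z) =
    (Fintype.card ι : ℝ) ^ 2 * (2 * (δ + S * H / √(M * K z)) * (M * K z + σ.F W z)) by ring]
  refine mul_le_mul_of_nonneg_left ?_ n0
  have h4 : δ * (2 * σ.F W z) ≤ 2 * δ * (M * K z + σ.F W z) := by nlinarith
  have hr : 0 < √(M * K z) := Real.sqrt_pos.2 hm
  have h5 : √(2 * σ.F W z) ≤ 1 / √(M * K z) * (M * K z + σ.F W z) := by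
    rw [div_mul_eq_mul_div, one_mul, le_div_iff₀ hr, ← Real.sqrt_mul (by linarith)]
    rw [Real.sqrt_le_left hs.le]
    nlinarith [sq_nonneg (M * K z), sq_nonneg (σ.F W z)]
  have h6 : 2 * (S * H * √(2 * σ.F W z)) ≤
      2 * (S * H / √(M * K z)) * (M * K z + σ.F W z) := by
    calc 2 * (S * H * √(2 * σ.F W z)) ≤ 2 * (S * H * (1 / √(M * K z) * (M * K z + σ.F W z))) :=
        mul_le_mul_of_nonneg_left (mul_le_mul_of_nonneg_left h5 (by positivity)) (by norm_num)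
      _ = _ := by ring
  linarith

end slot

end Vale.Agent.P088.R2.H858.P
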