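import Vale.Agent.P088.R2.H858.P.OutT

/-!
# P088, stage 3: the outer zone of the flat pass

`rowPOut : RowPOut E ι`, the zone `M₁ κ G ≤ |W_x|²`.
-/

open MeasureTheory Set Filter
open scoped ContDiff Topology

noncomputable section

namespace Vale.Agent.P088.R2.H858.P

open Vale.Agent.P088.R2.H961.GW Vale.Agent.P088.R2.H644 Vale.Agent.P088.R2.H960.W
  Vale.Agent.P088.R2.H230.W Vale.Agent.P088.R2.H660.P

section num

/-- `t X Y ≤ α X² + β Y²` if `t² ≤ 4 α β`. -/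
lemma xy_le {t α β X Y : ℝ} (hα : 0 < α) (h : t ^ 2 ≤ 4 * (α * β)) :
    t * (X * Y) ≤ α * X ^ 2 + β * Y ^ 2 := by
  have h1 : 0 ≤ (2 * α * X - t * Y) ^ 2 := sq_nonneg _
  have h2 : t ^ 2 * Y ^ 2 ≤ 4 * (α * β) * Y ^ 2 := mul_le_mul_of_nonneg_right h (sq_nonneg _)
  have h3 : 0 ≤ 4 * α * (α * X ^ 2 + β * Y ^ 2 - t * (X * Y)) := by
    have e : 4 * α * (α * X ^ 2 + β * Y ^ 2 - t * (X * Y)) =
        (2 * α * X - t * Y) ^ 2 + (4 * (α * β) * Y ^ 2 - t ^ 2 * Y ^ 2) := by ring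
    rw [e]; linarith
  have h4 := nonneg_of_mul_nonneg_right h3 (by positivity : 0 < 4 * α)
  linarith

/-- `t X a ≤ m a² / 2 + (t² / m) X² / 2`. -/
lemma xa_le {t m Q X a : ℝ} (hm : 0 < m) (h : t ^ 2 ≤ m * Q) :
    t * (X * a) ≤ 1 / 2 * (m * a ^ 2) + 1 / 2 * (Q * X ^ 2) := by
  have := xy_le (t := t) (α := 1 / 2 * m) (β := 1 / 2 * Q) (X := a) (Y := X) (by positivity)
    (by linarith)
  linarith

/-- The scalar inequality: `m = c₀ κ G`, `F ≥ M₁ κ G / 2`, `F' ≥ G² / 2`. -/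
lemma scal {n N C₁ c₀ c₂ η M₁ κ C G F F' X Y a b : ℝ} (k : Kc n N C₁ c₀ c₂ η M₁ κ C G)
    (G1 : 1 ≤ G) (hF : M₁ * κ * G ≤ 2 * F) (hF' : G ^ 2 ≤ 2 * F') :
    8 * (C₁ * κ ^ 2 * G ^ 2 * X ^ 2) + (C * G * ((X + Y) * (a + b)) +
      C * G ^ 2 * (X * Y + Y ^ 2) + C * G * X ^ 2) ≤
    c₀ * κ * G * (a ^ 2 + b ^ 2) + η * (c₀ * κ * G * F * X ^ 2 + c₀ * κ * G * F' * Y ^ 2) := by
  have hη := k.η0; have hc := k.c₀0; have hκ := k.κ0; have G0 := k.G0; have C1 := k.C1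
  have N1 := k.N1; have C₁1 := k.C₁1; have M1 := k.M1
  have P3 := k.P3
  have P1 := k.P1
  have NN : 1 ≤ N ^ 4 := one_le_pow₀ N1
  have C2 : C ≤ C ^ 2 := by simpa using pow_le_pow_right₀ C1 (show 1 ≤ 2 by norm_num)
  have NC : C ^ 2 ≤ N ^ 4 * C ^ 2 := by
    have := mul_le_mul_of_nonneg_right NN (by positivity : 0 ≤ C ^ 2)
    linarith
  obtain ⟨m, hm⟩ : ∃ m, m = c₀ * κ * G := ⟨_, rfl⟩
  have m0 : 0 < m := by rw [hm]; positivity
  obtain ⟨Q, hQ⟩ : ∃ Q, Q = C ^ 2 * G / (c₀ * κ) := ⟨_, rfl⟩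
  have Q0 : 0 < Q := by rw [hQ]; positivity
  have mQ : (C * G) ^ 2 = m * Q := by
    rw [hm, hQ]; field_simp
  -- the two budgets
  obtain ⟨α, hα⟩ : ∃ α, α = η * (m * F) := ⟨_, rfl⟩
  obtain ⟨β, hβ⟩ : ∃ β, β = η * (m * F') := ⟨_, rfl⟩
  have F0 : 0 < F := by
    have : 0 < M₁ * κ * G := by positivity
    linarith
  have F0' : 0 < F' := by
    have : 0 < G ^ 2 := by positivity
    linarith
  have a0 : 0 < α := by rw [hα]; positivity
  have b0 : 0 < β := by rw [hβ]; positivity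
  have la : η * c₀ * κ ^ 2 * G ^ 2 ≤ 2 * α := by
    have h1 : M₁ * (κ * G) * 1 ≥ 1 * (κ * G) * 1 := by
      have := mul_le_mul_of_nonneg_right M1 (by positivity : 0 ≤ κ * G)
      linarith
    have h2 : κ * G ≤ 2 * F := by linarith
    have h3 := mul_le_mul_of_nonneg_left h2 (by positivity : 0 ≤ η * m)
    rw [hα, hm] at *
    linarith
  have lb : η * c₀ * κ * G ^ 3 ≤ 2 * β := by
    have h3 := mul_le_mul_of_nonneg_left hF' (by positivity : 0 ≤ η * m)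
    rw [hβ, hm] at *
    linarith
  -- `G₂`
  have g2 : 8 * (C₁ * κ ^ 2 * G ^ 2) ≤ 1 / 10 * α := by
    have h1 : C₁ * (κ * G) ^ 2 ≤ N ^ 3 * C₁ * (κ * G) ^ 2 := by
      have := mul_le_mul_of_nonneg_right (one_le_pow₀ N1 : 1 ≤ N ^ 3)
        (by positivity : 0 ≤ C₁ * (κ * G) ^ 2)
      linarith
    have h2 := mul_le_mul_of_nonneg_right k.Q1 (by positivity : 0 ≤ (κ * G) ^ 2)
    have h3 := mul_le_mul_of_nonneg_left hF (by positivity : 0 ≤ η * m)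
    have h4 : η * m * (M₁ * κ * G) = η * c₀ * M₁ * (κ * G) ^ 2 := by rw [hm]; ring
    have h5 : 0 ≤ C₁ * (κ * G) ^ 2 := by positivity
    rw [h4] at h3
    rw [hα]
    linarith
  -- `Q`
  have qa : Q ≤ 1 / 10 * α := by
    have h1 : 10000 * C ^ 2 * (G / (c₀ * κ)) ≤ η ^ 2 * c₀ ^ 2 * κ ^ 3 * G * (G / (c₀ * κ)) :=
      mul_le_mul_of_nonneg_right (by linarith) (by positivity)
    have h2 : η ^ 2 * c₀ ^ 2 * κ ^ 3 * G * (G / (c₀ * κ)) = η * (η * c₀ * κ ^ 2 * G ^ 2) := by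
      field_simp
    have h3 : η * (η * c₀ * κ ^ 2 * G ^ 2) ≤ 1 * (η * c₀ * κ ^ 2 * G ^ 2) :=
      mul_le_mul_of_nonneg_right k.η1 (by positivity)
    have h4 : 10000 * C ^ 2 * (G / (c₀ * κ)) = 10000 * Q := by rw [hQ]; ring
    rw [h2, h4] at h1
    linarith
  have qb : Q ≤ 1 / 10 * β := by
    have h1 : 10000 * C ^ 2 * (G / (c₀ * κ)) ≤ η * c₀ * κ * G * (G / (c₀ * κ)) :=
      mul_le_mul_of_nonneg_right (by linarith) (by positivity)
    have h2 : η * c₀ * κ * G * (G / (c₀ * κ)) = η * G ^ 2 := by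
      field_simp
    have h4 : 10000 * C ^ 2 * (G / (c₀ * κ)) = 10000 * Q := by rw [hQ]; ring
    rw [h2, h4] at h1
    -- `η G² ≤ η c₀ κ G³ `
    have h5 : 1 ≤ c₀ * κ * G := by
      have h6 : η * (c₀ * κ * G) ≤ 1 * (c₀ * κ * G) :=
        mul_le_mul_of_nonneg_right k.η1 (by positivity)
      have h7 : 1 ≤ C ^ 2 := one_le_pow₀ C1
      linarith
    have h6 := mul_le_mul_of_nonneg_right h5 (by positivity : 0 ≤ η * G ^ 2)
    linarith
  have cg : C * G ≤ Q := by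
    have h1 : c₀ * κ ≤ 1 := by
      have := mul_le_mul k.c₀1 k.κ1 hκ.le (by norm_num)
      linarith
    rw [hQ, le_div_iff₀ (by positivity)]
    have h2 : C * G * (c₀ * κ) ≤ C * G * 1 := mul_le_mul_of_nonneg_left h1 (by positivity)
    have h3 : C * G ≤ C ^ 2 * G := mul_le_mul_of_nonneg_right C2 G0.le
    linarith
  -- `C G²`
  have cgb : C * G ^ 2 ≤ 1 / 10 * β := by
    have h1 := mul_le_mul_of_nonneg_right P1 (by positivity : 0 ≤ G ^ 2)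
    have h2 : C * G ^ 2 ≤ N ^ 4 * C ^ 2 * G ^ 2 :=
      mul_le_mul_of_nonneg_right (by linarith) (by positivity)
    have h3 : 0 ≤ C * G ^ 2 := by positivity
    linarith
  have cgab : (C * G ^ 2) ^ 2 ≤ 4 * (1 / 10 * α * (1 / 10 * β)) := by
    have h1 : (η * c₀ * κ ^ 2 * G ^ 2) * (η * c₀ * κ * G ^ 3) ≤ 2 * α * (2 * β) :=
      mul_le_mul la lb (by positivity) (by positivity)
    have h2 := mul_le_mul_of_nonneg_right P3 (by positivity : 0 ≤ G ^ 4)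
    have h3 : C ^ 2 * G ^ 4 ≤ N ^ 4 * C ^ 2 * G ^ 4 :=
      mul_le_mul_of_nonneg_right NC (by positivity)
    have h4 : 0 ≤ C ^ 2 * G ^ 4 := by positivity
    linarith
  have t1 := xa_le (t := C * G) (X := X) (a := a) m0 mQ.le
  have t2 := xa_le (t := C * G) (X := X) (a := b) m0 mQ.le
  have t3 := xa_le (t := C * G) (X := Y) (a := a) m0 mQ.le
  have t4 := xa_le (t := C * G) (X := Y) (a := b) m0 mQ.le
  have t5 := xy_le (t := C * G ^ 2) (α := 1 / 10 * α) (β := 1 / 10 * β) (X := X) (Y := Y)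
    (by positivity) cgab
  have X2 : 0 ≤ X ^ 2 := sq_nonneg X
  have Y2 : 0 ≤ Y ^ 2 := sq_nonneg Y
  have s1 := mul_le_mul_of_nonneg_right g2 X2
  have s2 := mul_le_mul_of_nonneg_right qa X2
  have s3 := mul_le_mul_of_nonneg_right qb Y2
  have s4 := mul_le_mul_of_nonneg_right cg X2
  have s5 := mul_le_mul_of_nonneg_right cgb Y2
  have s6 : 0 ≤ α * X ^ 2 := by positivity
  have s7 : 0 ≤ β * Y ^ 2 := by positivity
  have e1 : η * (c₀ * κ * G * F * X ^ 2 + c₀ * κ * G * F' * Y ^ 2) =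
      α * X ^ 2 + β * Y ^ 2 := by rw [hα, hβ, hm]; ring
  rw [e1, ← hm]
  linarith

end num

section row

variable (E ι : Type*) [NormedAddCommGroup E] [NormedSpace ℝ E] [Fintype ι] [DecidableEq ι]
variable [MeasureSpace E] [FiniteDimensional ℝ E] [BorelSpace E]
  [(volume : Measure E).IsAddHaarMeasure]

/-- **The zone outside the `K`-tube.** -/
theorem rowPOut : RowPOut E ι := by
  intro C₁ c₀ c₂ η κ₀ C₁1 c₀0 c₀1 c₂0 c₂1 η0 η1 ηκ
  obtain ⟨N, hN⟩ : ∃ N : ℝ, N = (Fintype.card ι : ℝ) + 1 := ⟨_, rfl⟩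
  have n0 : (0:ℝ) ≤ Fintype.card ι := Nat.cast_nonneg _
  have N1 : 1 ≤ N := by rw [hN]; linarith
  have nN : (Fintype.card ι : ℝ) ≤ N := by rw [hN]; linarith
  have hp : 0 < η ^ 4 * c₀ ^ 2 := by positivity
  have hp1 : η ^ 4 * c₀ ^ 2 ≤ 1 := by
    have h1 : η ^ 4 ≤ 1 := pow_le_one₀ η0.le (by linarith)
    have h2 : c₀ ^ 2 ≤ 1 := pow_le_one₀ c₀0.le c₀1
    have := mul_le_mul h1 h2 (by positivity) (by norm_num)
    linarith
  refine ⟨1000 * N ^ 3 * C₁ / (η ^ 4 * c₀ ^ 2), ?_, ?_⟩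
  · rw [le_div_iff₀ hp]
    have h4 : 1 ≤ N ^ 3 := one_le_pow₀ N1
    have h5 : 1 ≤ N ^ 3 * C₁ := by nlinarith
    linarith
  intro M₁ κ C hM₁ κ0 κ1 C1
  have hq : 0 < η ^ 4 * c₀ ^ 2 * κ ^ 3 := by positivity
  refine ⟨10000 * N ^ 4 * C ^ 2 / (η ^ 4 * c₀ ^ 2 * κ ^ 3), 1 / (8 * N), ?_, by positivity, ?_⟩
  · rw [le_div_iff₀ hq]
    have h1 : κ ^ 3 ≤ 1 := pow_le_one₀ κ0.le κ1
    have h2 : η ^ 4 * c₀ ^ 2 * κ ^ 3 ≤ 1 * 1 := mul_le_mul hp1 h1 (by positivity) (by norm_num)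
    have h3 : 1 ≤ N ^ 4 := one_le_pow₀ N1
    have h4 : 1 ≤ C ^ 2 := one_le_pow₀ C1
    have h5 : 1 ≤ N ^ 4 * C ^ 2 := by nlinarith
    linarith
  intro σ τ U Ω S θ v₁ v₂ W G χ e ok ot hv₁ hv₂ hW hχ hΩ h hG hS hSU h0 he H
  have ε0 : 0 < 1 / (8 * N) := by positivity
  have ε1 : 1 / (8 * N) ≤ 1 := by
    rw [div_le_one (by positivity)]; linarith
  have hε : (Fintype.card ι : ℝ) * (1 / (8 * N)) ≤ 1 / 8 := by
    rw [mul_one_div, div_le_iff₀ (by positivity)]; linarith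
  have kc : ∀ z ∈ Ω, Kc (Fintype.card ι) N C₁ c₀ c₂ η M₁ κ C (G z) := by
    intro z hz
    obtain ⟨-, -, -, hN₁, -, -⟩ := H z hz
    refine ⟨n0, N1, nN, C₁1, c₀0, c₀1, c₂0, c₂1, η0, by linarith, κ0, κ1, C1, ?_, ?_⟩
    · rw [div_le_iff₀ hp] at hM₁
      linarith
    · rw [div_le_iff₀ hq] at hN₁
      linarith
  have hx0 : ∀ z ∈ Ω, 0 < dd (gr σ W z) (gr σ W z) := by
    intro z hz
    obtain ⟨-, -, -, -, hw, -⟩ := H z hz
    have k := kc z hz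
    rw [← nn_sq]
    have := k.M0; have := k.G0
    exact lt_of_lt_of_le (by positivity) hw
  have hy0 : ∀ z ∈ Ω, 0 < dd (gr τ W z) (gr τ W z) := by
    intro z hz
    obtain ⟨-, -, b, -, -, -⟩ := H z hz
    exact dd_pos_of_nn ((kc z hz).G0.trans_le b.lo)
  have ok' := Ok_mono ok hΩ h
  have ot' := Ok_mono ot hΩ h
  have hWΩ := hW.mono h
  refine H747.SW.zoneA (c := cf σ e W fun l z => -(c₂ * κ * G z) * e l) (c' := cq τ W G)
    (K := 2) ok ot hv₁ hv₂ hW hχ hΩ h hS hSU h0 (fun i => ?_) (fun i => ?_)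
    (contDiffOn_const.mul hG) (lt_of_lt_of_le η0 ηκ) η0 η1 ηκ (by norm_num) (by linarith)
    (fun z hz => ?_) (fun z hz => ?_) (fun z hz A B x y => ?_)
  · exact sm_cf ok' hWΩ (fun l => ((contDiffOn_const.mul hG).neg).mul contDiffOn_const) hx0 i
  · exact sm_cq ot' hWΩ hG hy0 i
  · obtain ⟨Sx, -, b, -, hw, -⟩ := H z hz
    exact smS_x ok' hWΩ hG he ε0 ε1 hε Sx b hx0 hz (kc z hz) hw
  · obtain ⟨-, Sy, b, -, -, -⟩ := H z hz
    exact smS_y ot' hWΩ hG he ε0 ε1 hε Sy b hy0 hz (kc z hz)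
  · obtain ⟨Sx, Sy, b, -, hw, ct⟩ := H z hz
    have k := kc z hz
    have G0 := k.G0
    have ct' := ct A B
    have q := (abs_le.1 (b.qf A B x y)).1
    have g2 := (abs_le.1 b.G2).2
    have Fx := F_lo Sx hε W
    have Fy := F_lo Sy hε W
    have sx := (sb_near Sx hε A).2
    have sy := (sb_near Sy hε B).2
    have hlo : G z ^ 2 ≤ nn (gr τ W z) ^ 2 := pow_le_pow_left₀ G0.le b.lo 2
    have sc := scal (X := |x|) (Y := |y|) (a := nn A) (b := nn B) (F := σ.F W z)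
      (F' := τ.F W z) k b.G1 (hw.trans Fx) (hlo.trans Fy)
    rw [sq_abs, sq_abs, nn_sq, nn_sq] at sc
    have g2' : Ch.G2 σ W z * x ^ 2 ≤ C₁ * κ ^ 2 * G z ^ 2 * x ^ 2 :=
      mul_le_mul_of_nonneg_right g2 (sq_nonneg x)
    have m0 : 0 ≤ c₀ * κ * G z := by positivity
    have s1 := mul_le_mul_of_nonneg_left sx m0
    have s2 := mul_le_mul_of_nonneg_left sy m0
    have s3 : 0 ≤ c₀ * κ * G z * dd A A := mul_nonneg m0 (dd_self_nonneg A)
    have s4 : 0 ≤ c₀ * κ * G z * dd B B := mul_nonneg m0 (dd_self_nonneg B)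
    linarith

end row

end Vale.Agent.P088.R2.H858.P
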