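import Vale.Agent.P088.R2.H660.P.Data
import Vale.Agent.P088.R2.H230.W.FlT

/-!
# P088, stage 3: the outer zone of the flat pass, the smallness conditions of both slots
-/

open MeasureTheory Set Filter
open scoped ContDiff Topology

noncomputable section

namespace Vale.Agent.P088.R2.H858.P

open Vale.Agent.P088.R2.H961.GW Vale.Agent.P088.R2.H644 Vale.Agent.P088.R2.H960.W
  Vale.Agent.P088.R2.H230.W Vale.Agent.P088.R2.H660.P

section form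

variable {E ι : Type*} [NormedAddCommGroup E] [NormedSpace ℝ E] [Fintype ι] [DecidableEq ι]

lemma sum_dl (x y : ι → ℝ) : ∑ i, ∑ j, dl i j * x i * y j = dd x y := by
  unfold dd
  refine Finset.sum_congr rfl fun i _ => ?_
  simp [dl, ite_mul]

omit [DecidableEq ι] in
lemma dd_sum_sq (x : ι → ℝ) : ∑ i, x i ^ 2 = dd x x := by
  unfold dd
  exact Finset.sum_congr rfl fun i _ => by ring

variable {σ : Sl E ι} {ε : ℝ} {z : E}

lemma form_near (S : Sb σ ε z) (hε : Fintype.card ι * ε ≤ 1 / 8) (x y : ι → ℝ) :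
    |(∑ i, ∑ j, σ.s i j z * x i * y j) - dd x y| ≤ 1 / 8 * (nn x * nn y) := by
  have h := form_le (fun i j => σ.s i j z - dl i j) S.ss x y
  have e : ∑ i, ∑ j, (σ.s i j z - dl i j) * x i * y j =
      (∑ i, ∑ j, σ.s i j z * x i * y j) - dd x y := by
    rw [← sum_dl, ← Finset.sum_sub_distrib]
    refine Finset.sum_congr rfl fun i _ => ?_
    rw [← Finset.sum_sub_distrib]
    exact Finset.sum_congr rfl fun j _ => by ring
  rw [e] at h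
  refine h.trans ?_
  have h0 : 0 ≤ nn x * nn y := mul_nonneg (nn_nonneg _) (nn_nonneg _)
  have := mul_le_mul_of_nonneg_right hε h0
  linarith

lemma sb_near (S : Sb σ ε z) (hε : Fintype.card ι * ε ≤ 1 / 8) (A : ι → ℝ) :
    7 / 8 * dd A A ≤ H747.SW.ss σ A z ∧ H747.SW.ss σ A z ≤ 9 / 8 * dd A A := by
  have h := form_near S hε A A
  rw [nn_mul_self] at h
  have h1 := abs_le.1 h
  unfold H747.SW.ss
  constructor
  · linarith [h1.1]
  · linarith [h1.2]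

lemma sb_lo (S : Sb σ ε z) (hε : Fintype.card ι * ε ≤ 1 / 8) (A : ι → ℝ) :
    ∑ i, A i ^ 2 ≤ 2 * H747.SW.ss σ A z := by
  have h := (sb_near S hε A).1
  have h2 := dd_self_nonneg A
  rw [dd_sum_sq]
  linarith

lemma sb_sK (S : Sb σ ε z) (hε : Fintype.card ι * ε ≤ 1 / 8) (A B : ι → ℝ) :
    (∑ i, ∑ j, σ.s i j z * A i * B j) ^ 2 ≤ 2 ^ 2 * ((∑ i, A i ^ 2) * ∑ i, B i ^ 2) := by
  have h := form_near S hε A B
  have h1 := dd_le_nn A B
  have h0 : 0 ≤ nn A * nn B := mul_nonneg (nn_nonneg _) (nn_nonneg _)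
  have h2 : |∑ i, ∑ j, σ.s i j z * A i * B j| ≤ 2 * (nn A * nn B) := by
    have := abs_add_le ((∑ i, ∑ j, σ.s i j z * A i * B j) - dd A B) (dd A B)
    rw [sub_add_cancel] at this
    linarith
  have h3 := pow_le_pow_left₀ (abs_nonneg _) h2 2
  rw [sq_abs] at h3
  rw [dd_sum_sq, dd_sum_sq, ← nn_sq, ← nn_sq]
  calc _ ≤ _ := h3
    _ = _ := by ring

omit [Fintype ι] in
lemma sb_s2 (S : Sb σ ε z) (hε : ε ≤ 1) (i j : ι) : |σ.s i j z| ≤ 2 := by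
  have h := S.ss i j
  have h1 : |dl i j| ≤ 1 := by
    unfold dl
    split_ifs <;> simp
  have := abs_add_le (σ.s i j z - dl i j) (dl i j)
  rw [sub_add_cancel] at this
  linarith

lemma F_lo (S : Sb σ ε z) (hε : Fintype.card ι * ε ≤ 1 / 8) (W : E → ℝ) :
    nn (gr σ W z) ^ 2 ≤ 2 * σ.F W z := by
  have := sb_lo S hε (gr σ W z)
  rw [nn_sq, ← dd_sum_sq]
  exact this

end form

/-- The constants. -/
structure Kc (n N C₁ c₀ c₂ η M₁ κ C G : ℝ) : Prop where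
  n0 : 0 ≤ n
  N1 : 1 ≤ N
  nN : n ≤ N
  C₁1 : 1 ≤ C₁
  c₀0 : 0 < c₀
  c₀1 : c₀ ≤ 1
  c₂0 : 0 ≤ c₂
  c₂1 : c₂ ≤ 1
  η0 : 0 < η
  η1 : η ≤ 1
  κ0 : 0 < κ
  κ1 : κ ≤ 1
  C1 : 1 ≤ C
  M : 1000 * N ^ 3 * C₁ ≤ η ^ 4 * c₀ ^ 2 * M₁
  G : 10000 * N ^ 4 * C ^ 2 ≤ η ^ 4 * c₀ ^ 2 * κ ^ 3 * G

namespace Kc

variable {n N C₁ c₀ c₂ η M₁ κ C G : ℝ}

lemma NC (k : Kc n N C₁ c₀ c₂ η M₁ κ C G) : 1 ≤ N ^ 4 * C ^ 2 := by
  have h1 : 1 ≤ N ^ 4 := one_le_pow₀ k.N1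
  have h2 : 1 ≤ C ^ 2 := one_le_pow₀ k.C1
  nlinarith

lemma G0 (k : Kc n N C₁ c₀ c₂ η M₁ κ C G) : 0 < G := by
  have h1 := k.NC
  have h2 := k.G
  have h3 : 0 < η ^ 4 * c₀ ^ 2 * κ ^ 3 := by
    have := k.η0; have := k.c₀0; have := k.κ0
    positivity
  by_contra hc
  have hc := not_lt.1 hc
  have := mul_nonpos_of_nonneg_of_nonpos h3.le hc
  linarith

lemma M0 (k : Kc n N C₁ c₀ c₂ η M₁ κ C G) : 0 < M₁ := by
  have h2 := k.M
  have h4 : 0 < N ^ 3 * C₁ := by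
    have := k.N1; have := k.C₁1
    positivity
  have h3 : 0 < η ^ 4 * c₀ ^ 2 := by
    have := k.η0; have := k.c₀0
    positivity
  by_contra hc
  have hc := not_lt.1 hc
  have := mul_nonpos_of_nonneg_of_nonpos h3.le hc
  linarith

/-- Comparison of coefficients. -/
lemma cmp (k : Kc n N C₁ c₀ c₂ η M₁ κ C G) {p : ℝ} (hp : η ^ 4 * c₀ ^ 2 * κ ^ 3 ≤ p) :
    10000 * N ^ 4 * C ^ 2 ≤ p * G :=
  k.G.trans (mul_le_mul_of_nonneg_right hp k.G0.le)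

lemma e4 (k : Kc n N C₁ c₀ c₂ η M₁ κ C G) : η ^ 4 ≤ η ∧ η ^ 4 ≤ η ^ 2 ∧ η ^ 4 ≤ 1 := by
  have h0 := k.η0.le
  refine ⟨?_, pow_le_pow_of_le_one h0 k.η1 (by norm_num), pow_le_one₀ h0 k.η1⟩
  simpa using pow_le_pow_of_le_one h0 k.η1 (show 1 ≤ 4 by norm_num)

lemma c2 (k : Kc n N C₁ c₀ c₂ η M₁ κ C G) : c₀ ^ 2 ≤ c₀ := by
  simpa using pow_le_pow_of_le_one k.c₀0.le k.c₀1 (show 1 ≤ 2 by norm_num)

lemma k3 (k : Kc n N C₁ c₀ c₂ η M₁ κ C G) : κ ^ 3 ≤ κ := by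
  simpa using pow_le_pow_of_le_one k.κ0.le k.κ1 (show 1 ≤ 3 by norm_num)

/-- `10⁴ N⁴ C² ≤ η c₀ κ G`. -/
lemma P1 (k : Kc n N C₁ c₀ c₂ η M₁ κ C G) : 10000 * N ^ 4 * C ^ 2 ≤ η * c₀ * κ * G := by
  refine k.cmp ?_
  have := k.η0; have := k.c₀0; have := k.κ0
  exact mul_le_mul (mul_le_mul k.e4.1 k.c2 (by positivity) (by positivity)) k.k3 (by positivity)
    (by positivity)

/-- `10⁴ N⁴ C² ≤ η² c₀² κ G`. -/
lemma P2 (k : Kc n N C₁ c₀ c₂ η M₁ κ C G) : 10000 * N ^ 4 * C ^ 2 ≤ η ^ 2 * c₀ ^ 2 * κ * G := by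
  refine k.cmp ?_
  have := k.η0; have := k.c₀0; have := k.κ0
  exact mul_le_mul (mul_le_mul k.e4.2.1 le_rfl (by positivity) (by positivity)) k.k3 (by positivity)
    (by positivity)

/-- `10⁴ N⁴ C² ≤ η² c₀² κ³ G`. -/
lemma P3 (k : Kc n N C₁ c₀ c₂ η M₁ κ C G) :
    10000 * N ^ 4 * C ^ 2 ≤ η ^ 2 * c₀ ^ 2 * κ ^ 3 * G := by
  refine k.cmp ?_
  have := k.η0; have := k.c₀0; have := k.κ0
  exact mul_le_mul (mul_le_mul k.e4.2.1 le_rfl (by positivity) (by positivity)) le_rfl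
    (by positivity) (by positivity)

/-- `10⁴ N⁴ C² ≤ η⁴ c₀ κ G`. -/
lemma P4 (k : Kc n N C₁ c₀ c₂ η M₁ κ C G) : 10000 * N ^ 4 * C ^ 2 ≤ η ^ 4 * c₀ * κ * G := by
  refine k.cmp ?_
  have := k.η0; have := k.c₀0; have := k.κ0
  exact mul_le_mul (mul_le_mul le_rfl k.c2 (by positivity) (by positivity)) k.k3 (by positivity)
    (by positivity)

/-- `1000 N³ C₁ ≤ η c₀ M₁`. -/
lemma Q1 (k : Kc n N C₁ c₀ c₂ η M₁ κ C G) : 1000 * N ^ 3 * C₁ ≤ η * c₀ * M₁ := by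
  refine k.M.trans (mul_le_mul_of_nonneg_right ?_ k.M0.le)
  have := k.η0; have := k.c₀0
  exact mul_le_mul k.e4.1 k.c2 (by positivity) (by positivity)

lemma M1 (k : Kc n N C₁ c₀ c₂ η M₁ κ C G) : 1 ≤ M₁ := by
  have h1 := k.Q1
  have h2 : η * c₀ ≤ 1 := by
    have := mul_le_mul k.η1 k.c₀1 k.c₀0.le (by norm_num)
    linarith
  have h3 := mul_le_mul_of_nonneg_right h2 k.M0.le
  have h4 : 1 ≤ N ^ 3 := one_le_pow₀ k.N1
  have h5 : 1 ≤ N ^ 3 * C₁ := by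
    have := k.C₁1
    nlinarith
  linarith

/-- Powers of `N`, `C`. -/
lemma pw (k : Kc n N C₁ c₀ c₂ η M₁ κ C G) :
    n ^ 2 ≤ N ^ 2 ∧ 1 ≤ N ^ 2 ∧ N ^ 2 ≤ N ^ 3 ∧ N ^ 3 * C ≤ N ^ 4 * C ^ 2 ∧
      (N ^ 2 * C) ^ 2 = N ^ 4 * C ^ 2 := by
  refine ⟨pow_le_pow_left₀ k.n0 k.nN 2, one_le_pow₀ k.N1, pow_le_pow_right₀ k.N1 (by norm_num),
    ?_, by ring⟩
  have h1 : N ^ 3 ≤ N ^ 4 := pow_le_pow_right₀ k.N1 (by norm_num)
  have h2 : C ≤ C ^ 2 := by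
    simpa using pow_le_pow_right₀ k.C1 (show 1 ≤ 2 by norm_num)
  exact mul_le_mul h1 h2 (by linarith [k.C1]) (by have := k.N1; positivity)

/-- `80 N² C ≤ η c₀ w`. -/
lemma w80 (k : Kc n N C₁ c₀ c₂ η M₁ κ C G) {w : ℝ} (w0 : 0 ≤ w) (hw : M₁ * κ * G ≤ w ^ 2) :
    80 * (N ^ 2 * C) ≤ η * c₀ * w := by
  have := k.η0; have := k.c₀0; have := k.κ0; have := k.G0; have := k.C1; have := k.N1
  have h1 : κ * G ≤ w ^ 2 := by
    have : 1 * (κ * G) ≤ M₁ * (κ * G) := mul_le_mul_of_nonneg_right k.M1 (by positivity)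
    linarith
  have h2 := mul_le_mul_of_nonneg_left h1 (by positivity : 0 ≤ η ^ 2 * c₀ ^ 2)
  have h3 := k.P2
  have h4 := k.pw.2.2.2.2
  have h5 : (80 * (N ^ 2 * C)) ^ 2 ≤ (η * c₀ * w) ^ 2 := by
    have a1 : (80 * (N ^ 2 * C)) ^ 2 = 6400 * (N ^ 4 * C ^ 2) := by rw [mul_pow, h4]; norm_num
    have a2 : (η * c₀ * w) ^ 2 = η ^ 2 * c₀ ^ 2 * w ^ 2 := by ring
    have a3 : 0 ≤ N ^ 4 * C ^ 2 := by positivity
    rw [a1, a2]
    linarith
  exact (pow_le_pow_iff_left₀ (by positivity) (by positivity) two_ne_zero).1 h5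

end Kc

section slot

variable {E ι : Type*} [NormedAddCommGroup E] [NormedSpace ℝ E] [Fintype ι] [DecidableEq ι]
variable {σ τ : Sl E ι} {Ω : Set E} {θ v₁ v₂ W G : E → ℝ} {e : ι → ℝ} {z : E}
  {N C₁ c₀ c₂ η M₁ κ C ε : ℝ}

/-- **The slot of the critical gradient.** -/
theorem smS_x (ok : σ.Ok Ω θ) (hW : Sm Ω W) (hG : Sm Ω G) (he : dd e e = 1) (ε0 : 0 < ε)
    (ε1 : ε ≤ 1) (hε : Fintype.card ι * ε ≤ 1 / 8) (S : Sb σ ε z)
    (b : Wb σ τ v₁ v₂ W G κ C₁ C z) (h0 : ∀ z ∈ Ω, 0 < dd (gr σ W z) (gr σ W z)) (hz : z ∈ Ω)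
    (k : Kc (Fintype.card ι) N C₁ c₀ c₂ η M₁ κ C (G z))
    (hw : M₁ * κ * G z ≤ nn (gr σ W z) ^ 2) :
    H747.SW.SmS σ W (fun z => c₀ * κ * G z) (cf σ e W fun l z => -(c₂ * κ * G z) * e l) v₁ η 2
      z := by
  have hη := k.η0; have hc := k.c₀0; have hκ := k.κ0; have G0 := k.G0; have C1 := k.C1
  have N1 := k.N1; have C₁1 := k.C₁1
  obtain ⟨pw1, pw2, pw3, pw4, pw5⟩ := k.pw
  have hU := ok.op
  have e1 : nn e = 1 := nn_one he
  have hbp : Bp σ e W (fun l z => -(c₂ * κ * G z) * e l) ε (κ * G z) (2 * C * (κ * G z))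
      (N * C₁ * (κ * G z)) z := by
    refine ⟨h0 z hz, e1.le, sb_s2 S ε1, S.s1, fun l => ?_, fun l => ?_, ε0.le, ?_, ?_,
      fun i => ?_, fun i => ?_⟩
    · rw [S.k1 l]; simpa using ε0.le
    · rw [S.e1 l]; simpa using ε0.le
    · have h1 : nn (fun j => -(c₂ * κ * G z) * e j) = |-(c₂ * κ * G z)| * nn e := nn_smul _ _
      rw [h1, e1, abs_neg, abs_of_nonneg (by have := k.c₂0; positivity), mul_one]
      have := mul_le_mul_of_nonneg_right k.c₂1 (by positivity : 0 ≤ κ * G z)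
      linarith
    · have h1 : 1 + ε ≤ 2 * C := by linarith
      exact mul_le_mul_of_nonneg_right h1 (by positivity)
    · have h1 : ∀ j, σ.D i (fun z => -(c₂ * κ * G z) * e j) z = -(c₂ * κ * σ.D i G z) * e j := by
        intro j
        have h2 := D_cmul σ hU (-(c₂ * κ) * e j) hG i hz
        have h3 : (fun z => -(c₂ * κ * G z) * e j) = fun z => -(c₂ * κ) * e j * G z := by
          funext w; ring
        rw [h3, h2]; ring
      have h2 : nn (fun j => σ.D i (fun z => -(c₂ * κ * G z) * e j) z) =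
          |-(c₂ * κ * σ.D i G z)| * nn e := by
        rw [← nn_smul]
        congr 1
        funext j
        rw [h1 j]; rfl
      rw [h2, e1, abs_neg, mul_one, abs_mul, abs_of_nonneg (by have := k.c₂0; positivity)]
      have h3 : c₂ * κ ≤ 1 * κ := mul_le_mul_of_nonneg_right k.c₂1 hκ.le
      have h4 : c₂ * κ * |σ.D i G z| ≤ 1 * κ * (C * G z) :=
        mul_le_mul h3 (b.g1 i) (abs_nonneg _) (by positivity)
      have h5 : 0 ≤ C * (κ * G z) := by positivity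
      linarith
    · refine (nn_le_l1 _).trans ?_
      calc ∑ j, |σ.D i (σ.D j W) z| ≤ ∑ _j : ι, C₁ * κ * G z :=
            Finset.sum_le_sum fun j _ => b.w2 i j
        _ = (Fintype.card ι : ℝ) * (C₁ * κ * G z) := by
            rw [Finset.sum_const, Finset.card_univ, nsmul_eq_mul]
        _ ≤ N * (C₁ * κ * G z) := mul_le_mul_of_nonneg_right k.nN (by positivity)
        _ = _ := by ring
  obtain ⟨w, hwd⟩ : ∃ w, w = nn (gr σ W z) := ⟨_, rfl⟩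
  obtain ⟨g, hg⟩ : ∃ g, g = κ * G z := ⟨_, rfl⟩
  have g0 : 0 < g := by rw [hg]; positivity
  have w0 : 0 ≤ w := by rw [hwd]; exact nn_nonneg _
  have hm : c₀ * κ * G z = c₀ * g := by rw [hg]; ring
  have hw' : M₁ * g ≤ w ^ 2 := by rw [hg, hwd]; linarith
  have w80 := k.w80 w0 (by rw [hwd]; exact hw)
  have g1 : 1 ≤ g := by
    have h1 := k.P1
    have h2 := k.NC
    have h3 : η * c₀ * g ≤ 1 * g := by
      refine mul_le_mul_of_nonneg_right ?_ g0.le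
      have := mul_le_mul k.η1 k.c₀1 hc.le (by norm_num)
      linarith
    have h4 : η * c₀ * κ * G z = η * c₀ * g := by rw [hg]; ring
    linarith
  have n0 := k.n0
  refine smS_fl (M₁ := C * (c₀ * g)) hbp ok hW (fun i => ?_) h0 b.v1 hz hη.le
    (by positivity) (by rw [hm]; positivity) (sb_lo S hε) (sb_sK S hε) (fun i => ?_) ?_ ?_ ?_
  · exact ((contDiffOn_const.mul hG).neg).mul contDiffOn_const
  · rw [D_cmul σ hU (c₀ * κ) hG i hz, abs_mul, abs_of_nonneg (by positivity)]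
    have := mul_le_mul_of_nonneg_left (b.g1 i) (by positivity : 0 ≤ c₀ * κ)
    rw [hg]
    linarith
  · -- c1
    rw [hm, ← hwd, ← hg]
    have a1 : (Fintype.card ι : ℝ) ^ 2 * (N * C₁ * g * g) ≤ N ^ 2 * (N * C₁ * g * g) :=
      mul_le_mul_of_nonneg_right pw1 (by positivity)
    have a2 : (Fintype.card ι : ℝ) ^ 2 * (2 * C * g * w) ≤ N ^ 2 * (2 * C * g * w) :=
      mul_le_mul_of_nonneg_right pw1 (by positivity)
    have a3 : 1000 * N ^ 3 * C₁ * (g * g) ≤ η * c₀ * M₁ * (g * g) :=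
      mul_le_mul_of_nonneg_right k.Q1 (by positivity)
    have a4 : η * c₀ * g * (M₁ * g) ≤ η * c₀ * g * w ^ 2 :=
      mul_le_mul_of_nonneg_left hw' (by positivity)
    have a5 : 80 * (N ^ 2 * C) * (g * w) ≤ η * c₀ * w * (g * w) :=
      mul_le_mul_of_nonneg_right w80 (by positivity)
    have a6 : 0 ≤ η * c₀ * g * w ^ 2 := by positivity
    have a7 : 0 ≤ N ^ 2 * C * (g * w) := by positivity
    linarith
  · -- c2
    rw [hm, ← hwd, ← hg]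
    have a1 : 1000 * N ^ 3 * C₁ * (g * g ^ 2) ≤ η ^ 4 * c₀ ^ 2 * M₁ * (g * g ^ 2) :=
      mul_le_mul_of_nonneg_right k.M (by positivity)
    have a2 : η ^ 4 * c₀ ^ 2 * g ^ 2 * (M₁ * g) ≤ η ^ 4 * c₀ ^ 2 * g ^ 2 * w ^ 2 :=
      mul_le_mul_of_nonneg_left hw' (by positivity)
    have a3 : 1 ≤ N ^ 3 * C₁ := by
      have h4 : 1 ≤ N ^ 3 := one_le_pow₀ N1
      nlinarith
    have a4 : 1 * (g * g ^ 2) ≤ N ^ 3 * C₁ * (g * g ^ 2) :=
      mul_le_mul_of_nonneg_right a3 (by positivity)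
    have a5 : 1 * g ^ 2 ≤ g * g ^ 2 := mul_le_mul_of_nonneg_right g1 (by positivity)
    have a6 : c₀ * (g * g ^ 2) ≤ 1 * (g * g ^ 2) :=
      mul_le_mul_of_nonneg_right k.c₀1 (by positivity)
    have a7 : 0 ≤ g * g ^ 2 := by positivity
    linarith
  · -- c3
    rw [hm, ← hwd, ← hg]
    have a1 : (Fintype.card ι : ℝ) ^ 2 * (c₀ * g * (N * C₁ * g + ε * w) + C * (c₀ * g) * w) ≤
        N ^ 2 * (c₀ * g * (N * C₁ * g + ε * w) + C * (c₀ * g) * w) :=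
      mul_le_mul_of_nonneg_right pw1 (by positivity)
    have a2 : ε * w ≤ C * w := mul_le_mul_of_nonneg_right (by linarith) w0
    have a3 : N ^ 2 * (c₀ * g) * (ε * w) ≤ N ^ 2 * (c₀ * g) * (C * w) :=
      mul_le_mul_of_nonneg_left a2 (by positivity)
    have a4 : 1000 * N ^ 3 * C₁ * (c₀ * g * g) ≤ η * c₀ * M₁ * (c₀ * g * g) :=
      mul_le_mul_of_nonneg_right k.Q1 (by positivity)
    have a5 : η * c₀ * (c₀ * g) * (M₁ * g) ≤ η * c₀ * (c₀ * g) * w ^ 2 :=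
      mul_le_mul_of_nonneg_left hw' (by positivity)
    have a6 : 80 * (N ^ 2 * C) * (c₀ * g * w) ≤ η * c₀ * w * (c₀ * g * w) :=
      mul_le_mul_of_nonneg_right w80 (by positivity)
    have a7 : c₀ * (η * (c₀ * g) * w ^ 2) ≤ 1 * (η * (c₀ * g) * w ^ 2) :=
      mul_le_mul_of_nonneg_right k.c₀1 (by positivity)
    have a8 : 0 ≤ η * (c₀ * g) * w ^ 2 := by positivity
    have a9 : 0 ≤ N ^ 2 * C * (c₀ * g * w) := by positivity
    linarith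

end slot

end Vale.Agent.P088.R2.H858.P
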