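import Vale.Agent.P088.R2.H858.P.OutS

/-!
# P088, stage 3: the outer zone of the flat pass, the slot of the large gradient
-/

open MeasureTheory Set Filter
open scoped ContDiff Topology

noncomputable section

namespace Vale.Agent.P088.R2.H858.P

open Vale.Agent.P088.R2.H961.GW Vale.Agent.P088.R2.H644 Vale.Agent.P088.R2.H960.W
  Vale.Agent.P088.R2.H230.W Vale.Agent.P088.R2.H660.P

variable {E ι : Type*} [NormedAddCommGroup E] [NormedSpace ℝ E] [Fintype ι] [DecidableEq ι]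
variable {σ τ : Sl E ι} {Ω : Set E} {θ v₁ v₂ W G : E → ℝ} {e : ι → ℝ} {z : E}
  {N C₁ c₀ c₂ η M₁ κ C ε : ℝ}

omit [DecidableEq ι] in
theorem sm_q (ok : τ.Ok Ω θ) (hW : Sm Ω W) : Sm Ω fun z => dd (gr τ W z) (gr τ W z) :=
  Sm.sum _ fun i _ => (ok.sD hW i).mul (ok.sD hW i)

omit [DecidableEq ι] in
theorem sm_cq (ok : τ.Ok Ω θ) (hW : Sm Ω W) (hG : Sm Ω G)
    (h0 : ∀ z ∈ Ω, 0 < dd (gr τ W z) (gr τ W z)) (l : ι) : Sm Ω (cq τ W G l) :=
  (hG.div (sm_q ok hW) fun z hz => (h0 z hz).ne').mul (ok.sD hW l)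

omit [DecidableEq ι] in
/-- The derivatives of the field `G w / |w|²`. -/
theorem cq_D (ok : τ.Ok Ω θ) (hW : Sm Ω W) (hG : Sm Ω G)
    (h0 : ∀ z ∈ Ω, 0 < dd (gr τ W z) (gr τ W z)) (hz : z ∈ Ω) (i l : ι) :
    τ.D i (cq τ W G l) z * nn (gr τ W z) ^ 2 = τ.D i G z * τ.D l W z +
      G z * τ.D i (τ.D l W) z -
      cq τ W G l z * (2 * dd (fun k => τ.D i (τ.D k W) z) (gr τ W z)) := by
  have hU := ok.op
  have e1 : ∀ w ∈ Ω, cq τ W G l w * dd (gr τ W w) (gr τ W w) = G w * τ.D l W w := by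
    intro w hw
    have := (h0 w hw).ne'
    unfold cq
    field_simp
  have h1 := D_congr τ hU e1 i hz
  rw [D_mul τ hU (sm_cq ok hW hG h0 l) (sm_q ok hW) i hz, D_mul τ hU hG (ok.sD hW l) i hz] at h1
  have h2 : τ.D i (fun z => dd (gr τ W z) (gr τ W z)) z =
      2 * dd (fun k => τ.D i (τ.D k W) z) (gr τ W z) := by
    have e2 : (fun z => dd (gr τ W z) (gr τ W z)) = fun z => ∑ k, τ.D k W z * τ.D k W z := rfl
    rw [e2, D_sum τ hU _ (fun k _ => (ok.sD hW k).mul (ok.sD hW k)) i hz]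
    unfold dd gr
    rw [Finset.mul_sum]
    refine Finset.sum_congr rfl fun k _ => ?_
    rw [D_mul τ hU (ok.sD hW k) (ok.sD hW k) i hz]
    ring
  rw [h2] at h1
  rw [nn_sq]
  linarith

/-- **The slot of the large gradient.** -/
theorem smS_y (ok : τ.Ok Ω θ) (hW : Sm Ω W) (hG : Sm Ω G) (he : dd e e = 1) (ε0 : 0 < ε)
    (ε1 : ε ≤ 1) (hε : Fintype.card ι * ε ≤ 1 / 8) (S : Sb τ ε z)
    (b : Wb σ τ v₁ v₂ W G κ C₁ C z) (h0 : ∀ z ∈ Ω, 0 < dd (gr τ W z) (gr τ W z)) (hz : z ∈ Ω)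
    (k : Kc (Fintype.card ι) N C₁ c₀ c₂ η M₁ κ C (G z)) :
    H747.SW.SmS τ W (fun z => c₀ * κ * G z) (cq τ W G) v₂ η 2 z := by
  have hη := k.η0; have hc := k.c₀0; have hκ := k.κ0; have G0 := k.G0; have C1 := k.C1
  have N1 := k.N1; have C₁1 := k.C₁1; have n0 := k.n0
  obtain ⟨pw1, pw2, pw3, pw4, pw5⟩ := k.pw
  have hU := ok.op
  have e1 : nn e = 1 := nn_one he
  obtain ⟨H, hH⟩ : ∃ H, H = N * (C * G z) := ⟨_, rfl⟩
  have hw2 : ∀ i, nn (fun j => τ.D i (τ.D j W) z) ≤ H := by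
    intro i
    refine (nn_le_l1 _).trans ?_
    calc ∑ j, |τ.D i (τ.D j W) z| ≤ ∑ _j : ι, C * G z :=
          Finset.sum_le_sum fun j _ => b.w2' i j
      _ = (Fintype.card ι : ℝ) * (C * G z) := by
          rw [Finset.sum_const, Finset.card_univ, nsmul_eq_mul]
      _ ≤ N * (C * G z) := mul_le_mul_of_nonneg_right k.nN (by positivity)
      _ = _ := hH.symm
  have hbp : Bp τ e W (fun _ _ => 0) ε 0 0 H z := by
    have z0 : nn (fun _ : ι => (0:ℝ)) = 0 := by simp [nn, dd]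
    refine ⟨h0 z hz, e1.le, sb_s2 S ε1, S.s1, fun l => ?_, fun l => ?_, ε0.le, z0.le,
      by rw [mul_zero], fun i => ?_, hw2⟩
    · rw [S.k1 l]; simpa using ε0.le
    · rw [S.e1 l]; simpa using ε0.le
    · have h1 : (fun j : ι => τ.D i (fun _ : E => (0:ℝ)) z) = fun _ => 0 := by
        funext j; exact D_const τ 0 i z
      have h2 : nn (fun j : ι => τ.D i (fun _ : E => (0:ℝ)) z) = 0 := by rw [h1]; exact z0
      exact h2.le
  obtain ⟨w, hwd⟩ : ∃ w, w = nn (gr τ W z) := ⟨_, rfl⟩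
  have wG : G z ≤ w := by rw [hwd]; exact b.lo
  have w0 : 0 < w := G0.trans_le wG
  obtain ⟨F, hF⟩ : ∃ F, F = τ.F W z := ⟨_, rfl⟩
  have Fl : w ^ 2 ≤ 2 * F := by rw [hwd, hF]; exact F_lo S hε W
  obtain ⟨m, hm⟩ : ∃ m, m = c₀ * κ * G z := ⟨_, rfl⟩
  have m0 : 0 < m := by rw [hm]; positivity
  -- the large parameter
  have P1 : 10000 * (N ^ 4 * C ^ 2) ≤ η * m := by
    have := k.P1
    rw [hm]; linarith
  have P4 : 10000 * (N ^ 4 * C ^ 2) ≤ η ^ 4 * m := by
    have := k.P4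
    rw [hm]; linarith
  have NC := k.NC
  have N3C : 0 < N ^ 3 * C := by positivity
  have mG : m ≤ G z := by
    have h1 : c₀ * κ ≤ 1 := by
      have := mul_le_mul k.c₀1 k.κ1 hκ.le (by norm_num)
      linarith
    have := mul_le_mul_of_nonneg_right h1 G0.le
    rw [hm]; linarith
  -- the field
  have cn : nn (fun l => cq τ W G l z) * w = G z := by
    rw [cq_eq, hwd]
    exact nn_cp (h0 z hz) G0.le
  have cn1 : nn (fun l => cq τ W G l z) ≤ 1 := by
    by_contra hcon
    have hcon := not_le.1 hcon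
    have := mul_lt_mul_of_pos_right hcon w0
    linarith
  have c0 : ∀ l, |cq τ W G l z| ≤ 1 := fun l => (abs_le_nn (fun l => cq τ W G l z) l).trans cn1
  have c1 : ∀ i l, |τ.D i (cq τ W G l) z| ≤ 4 * N * C := by
    intro i l
    have h1 := cq_D ok hW hG h0 hz i l
    rw [← hwd] at h1
    have h2 : |τ.D i (cq τ W G l) z * w ^ 2| ≤ 4 * N * C * w ^ 2 := by
      rw [h1]
      have a1 : |τ.D i G z * τ.D l W z| ≤ C * G z * w := by
        rw [abs_mul]
        refine mul_le_mul (b.g1' i) ?_ (abs_nonneg _) (by positivity)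
        rw [hwd]; exact abs_le_nn (gr τ W z) l
      have a2 : |G z * τ.D i (τ.D l W) z| ≤ G z * (C * G z) := by
        rw [abs_mul, abs_of_pos G0]
        exact mul_le_mul_of_nonneg_left (b.w2' i l) G0.le
      have a3 : |dd (fun k => τ.D i (τ.D k W) z) (gr τ W z)| ≤ H * w := by
        refine (dd_le_nn _ _).trans ?_
        rw [← hwd]
        exact mul_le_mul_of_nonneg_right (hw2 i) w0.le
      have a4 : |cq τ W G l z * (2 * dd (fun k => τ.D i (τ.D k W) z) (gr τ W z))| ≤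
          1 * (2 * (H * w)) := by
        rw [abs_mul, abs_mul, abs_of_pos (by norm_num : (0:ℝ) < 2)]
        exact mul_le_mul (c0 l) (by linarith) (by positivity) (by norm_num)
      have a5 := abs_sub (τ.D i G z * τ.D l W z + G z * τ.D i (τ.D l W) z)
        (cq τ W G l z * (2 * dd (fun k => τ.D i (τ.D k W) z) (gr τ W z)))
      have a6 := abs_add_le (τ.D i G z * τ.D l W z) (G z * τ.D i (τ.D l W) z)
      have b1 : C * (G z * w) ≤ C * (w * w) :=
        mul_le_mul_of_nonneg_left (mul_le_mul_of_nonneg_right wG w0.le) (by linarith)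
      have b2 : C * (G z * G z) ≤ C * (w * w) :=
        mul_le_mul_of_nonneg_left (mul_le_mul wG wG G0.le w0.le) (by linarith)
      have b3 : H * w ≤ N * (C * (w * w)) := by
        rw [hH]
        have := mul_le_mul_of_nonneg_left b1 (by linarith : 0 ≤ N)
        linarith
      have b4 : 1 * (C * (w * w)) ≤ N * (C * (w * w)) :=
        mul_le_mul_of_nonneg_right N1 (by positivity)
      have b5 : 4 * N * C * w ^ 2 = 4 * (N * (C * (w * w))) := by ring
      rw [b5]
      linarith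
    rw [abs_mul, abs_of_pos (by positivity : 0 < w ^ 2)] at h2
    exact le_of_mul_le_mul_right h2 (by positivity)
  refine ⟨?_, sb_lo S hε, sb_sK S hε, ?_, ?_, fun a => ?_, ?_⟩
  · exact (by positivity : 0 ≤ c₀ * κ * G z)
  · -- w1
    have hmb : ∀ i, |τ.D i (fun z => c₀ * κ * G z) z| ≤ C * m := by
      intro i
      rw [D_cmul τ hU (c₀ * κ) hG i hz, abs_mul, abs_of_nonneg (by positivity)]
      have := mul_le_mul_of_nonneg_left (b.g1' i) (by positivity : 0 ≤ c₀ * κ)
      rw [hm]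
      linarith
    have h := w1_bd hbp (m := fun z => c₀ * κ * G z)
      (by exact (by positivity : 0 ≤ c₀ * κ * G z)) hmb
    refine h.trans ?_
    rw [← hm, ← hwd, ← hF]
    have a1 : (Fintype.card ι : ℝ) ^ 2 * (m * (H + ε * w) + C * m * w) ≤
        N ^ 2 * (m * (H + ε * w) + C * m * w) :=
      mul_le_mul_of_nonneg_right pw1 (by
        have : 0 ≤ H := (nn_nonneg _).trans (by rw [hH]; exact (by
          have h1 : nn (0 : ι → ℝ) = 0 := by simp [nn, dd]
          rw [h1]; positivity))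
        positivity)
    have a2 : H ≤ N * (C * w) := by
      rw [hH]
      exact mul_le_mul_of_nonneg_left (mul_le_mul_of_nonneg_left wG (by linarith)) (by linarith)
    have a3 : ε * w ≤ N * (C * w) := by
      have h1 : 1 * (C * w) ≤ N * (C * w) := mul_le_mul_of_nonneg_right N1 (by positivity)
      have h2 : ε * w ≤ C * w := mul_le_mul_of_nonneg_right (by linarith) w0.le
      linarith
    have a4 : 1 * (C * w) ≤ N * (C * w) := mul_le_mul_of_nonneg_right N1 (by positivity)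
    have a5 : m * (H + ε * w) + C * m * w ≤ m * (3 * (N * (C * w))) := by
      have := mul_le_mul_of_nonneg_left (by linarith : H + ε * w + C * w ≤ 3 * (N * (C * w)))
        m0.le
      linarith
    have a6 := mul_le_mul_of_nonneg_left a5 (by positivity : 0 ≤ N ^ 2)
    -- `18 N³ C ≤ η w`
    have a7 : 10000 * (N ^ 3 * C) ≤ η * w := by
      have h1 : η * m ≤ η * w := mul_le_mul_of_nonneg_left (mG.trans wG) hη.le
      linarith
    have a8 := mul_le_mul_of_nonneg_right a7 (by positivity : 0 ≤ m * w)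
    have a9 := mul_le_mul_of_nonneg_left Fl (by positivity : 0 ≤ η * m)
    have a10 : 0 ≤ N ^ 3 * C * (m * w) := by positivity
    linarith
  · -- f1
    have DFl : ∀ j, |τ.D j (τ.F W) z| ≤ 5 * (N ^ 2 * C) * w ^ 2 := by
      intro j
      have h := DF_le hbp ok hW hz j
      rw [← hwd] at h
      refine h.trans ?_
      have b1 : H * w ≤ N * (C * w ^ 2) := by
        rw [hH]
        have h1 : C * (G z * w) ≤ C * (w * w) :=
          mul_le_mul_of_nonneg_left (mul_le_mul_of_nonneg_right wG w0.le) (by linarith)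
        have := mul_le_mul_of_nonneg_left h1 (by linarith : 0 ≤ N)
        linarith
      have b2 : ε * w ^ 2 ≤ N * (C * w ^ 2) := by
        have h1 : 1 * (C * w ^ 2) ≤ N * (C * w ^ 2) :=
          mul_le_mul_of_nonneg_right N1 (by positivity)
        have h2 : ε * w ^ 2 ≤ C * w ^ 2 := mul_le_mul_of_nonneg_right (by linarith) (by positivity)
        linarith
      have b3 : ε * w ^ 2 + 4 * (H * w) ≤ 5 * (N * (C * w ^ 2)) := by linarith
      have b4 : (Fintype.card ι : ℝ) * (ε * w ^ 2 + 4 * (H * w)) ≤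
          N * (5 * (N * (C * w ^ 2))) := by
        refine mul_le_mul k.nN b3 ?_ (by linarith)
        have : 0 ≤ H := by rw [hH]; positivity
        positivity
      linarith
    have Fl2 : |τ.F W z| ≤ 2 * (N * w ^ 2) := by
      have h := F_le hbp
      rw [← hwd] at h
      have := mul_le_mul_of_nonneg_right k.nN (by positivity : 0 ≤ w ^ 2)
      linarith
    have t : ∀ j, |τ.D j (fun z => τ.F W z * cq τ W G j z) z +
        τ.k j z * (τ.F W z * cq τ W G j z)| ≤ 13 * (N ^ 2 * C) * w ^ 2 := by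
      intro j
      rw [S.k1 j, zero_mul, add_zero, D_mul τ hU (ok.sF hW) (sm_cq ok hW hG h0 j) j hz]
      have x1 : |τ.D j (τ.F W) z * cq τ W G j z| ≤ 5 * (N ^ 2 * C) * w ^ 2 * 1 := by
        rw [abs_mul]
        exact mul_le_mul (DFl j) (c0 j) (abs_nonneg _) (by positivity)
      have x2 : |τ.F W z * τ.D j (cq τ W G j) z| ≤ 2 * (N * w ^ 2) * (4 * N * C) := by
        rw [abs_mul]
        exact mul_le_mul Fl2 (c1 j j) (abs_nonneg _) (by positivity)
      refine (abs_add_le _ _).trans ?_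
      linarith
    have tot : |dF τ (cq τ W G) W z| ≤ 13 * (N ^ 3 * C) * w ^ 2 := by
      unfold dF
      calc _ ≤ ∑ j, |τ.D j (fun z => τ.F W z * cq τ W G j z) z +
            τ.k j z * (τ.F W z * cq τ W G j z)| := Finset.abs_sum_le_sum_abs _ _
        _ ≤ ∑ _j : ι, 13 * (N ^ 2 * C) * w ^ 2 := Finset.sum_le_sum fun j _ => t j
        _ = (Fintype.card ι : ℝ) * (13 * (N ^ 2 * C) * w ^ 2) := by
            rw [Finset.sum_const, Finset.card_univ, nsmul_eq_mul]
        _ ≤ N * (13 * (N ^ 2 * C) * w ^ 2) := mul_le_mul_of_nonneg_right k.nN (by positivity)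
        _ = _ := by ring
    refine tot.trans ?_
    rw [← hm, ← hF]
    have a7 : 10000 * (N ^ 3 * C) ≤ η * m := by linarith
    have a8 := mul_le_mul_of_nonneg_right a7 (by positivity : 0 ≤ w ^ 2)
    have a9 := mul_le_mul_of_nonneg_left Fl (by positivity : 0 ≤ η * m)
    have a10 : 0 ≤ N ^ 3 * C * w ^ 2 := by positivity
    linarith
  · -- f2
    have h := eC_bd (v := v₂) (W := W) (a := a) (c := cq τ W G) (S := 2) (B := ε) (A₀ := 1)
      (A₁ := 4 * N * C) (sb_s2 S ε1) S.s1 (fun l => by rw [S.k1 l]; simpa using ε0.le)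
      (fun l => by rw [S.e1 l]; simpa using ε0.le) c0 c1 (by norm_num) ε0.le (by norm_num)
      (by positivity)
    rw [b.v2, zero_mul] at h
    have e2 : H747.SW.Ys τ W a z = ∑ i, YY τ W a i z ^ 2 := rfl
    rw [← hm, e2]
    obtain ⟨Y, hY⟩ : ∃ Y, Y = ∑ i, YY τ W a i z ^ 2 := ⟨_, rfl⟩
    have Y0 : 0 ≤ Y := by rw [hY]; exact Finset.sum_nonneg fun i _ => sq_nonneg _
    rw [← hY] at h ⊢
    refine h.trans ?_
    have b1 : (Fintype.card ι : ℝ) ^ 2 * (3 / 2 * 2 * (4 * N * C) +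
        (5 / 2 * 2 + 1 / 2) * ε * 1) ≤ N ^ 2 * (18 * (N * C)) := by
      refine mul_le_mul pw1 ?_ (by positivity) (by positivity)
      have : 1 * C ≤ N * C := mul_le_mul_of_nonneg_right N1 (by linarith)
      linarith
    have b2 : (Fintype.card ι : ℝ) ≤ N ^ 3 * C := by
      have h1 : N ≤ N ^ 3 := by simpa using pow_le_pow_right₀ N1 (show 1 ≤ 3 by norm_num)
      have h2 : N ^ 3 * 1 ≤ N ^ 3 * C := mul_le_mul_of_nonneg_left C1 (by positivity)
      have := k.nN
      linarith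
    have b3 := mul_le_mul_of_nonneg_right b1 Y0
    have b4 := mul_le_mul_of_nonneg_right b2 Y0
    have a7 : 10000 * (N ^ 3 * C) ≤ η * m := by linarith
    have a8 := mul_le_mul_of_nonneg_right a7 Y0
    have a10 : 0 ≤ N ^ 3 * C * Y := by positivity
    linarith
  · -- f3
    have e2 : ∑ i, cq τ W G i z ^ 2 = nn (fun i => cq τ W G i z) ^ 2 := by
      rw [nn_sq]; exact dd_sum_sq _
    have h1 : nn (fun i => cq τ W G i z) ^ 2 ≤ 1 := pow_le_one₀ (nn_nonneg _) cn1
    rw [← hm, e2]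
    have h2 : (2 + m) * nn (fun i => cq τ W G i z) ^ 2 ≤ (2 + m) * 1 :=
      mul_le_mul_of_nonneg_left h1 (by linarith)
    have h3 : 10000 ≤ η ^ 4 * m := by linarith
    have h4 : η ^ 4 * m ≤ 1 * m := mul_le_mul_of_nonneg_right k.e4.2.2 m0.le
    have h5 := mul_le_mul_of_nonneg_right h3 m0.le
    linarith

end Vale.Agent.P088.R2.H858.P
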